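/-
P235-M, sums (helper598), part 4: limits of `L₁` semimetrics on a finite set.
-/
import Vale.Agent.P235.Bdl.B1
import Mathlib.Topology.Order.Compact
import Mathlib.Topology.Sequences
import Mathlib.Analysis.SpecificLimits.Basic

namespace Vale.Agent.P235.R2.H598

open Vale.Agent.P235 Filter Topology

/-- weights indexed by all cuts -/
theorem exists_weights {V : Type} [Fintype V] [DecidableEq V] {F : V → V → ℝ} (hF : IsL1 F)
    {M : ℝ} (hM0 : 0 ≤ M) (hM : ∀ x y, F x y ≤ M) :
    ∃ w : (V → Bool) → ℝ, (∀ b, 0 ≤ w b) ∧ (∀ b, w b ≤ M) ∧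
      ∀ x y, F x y = ∑ b, w b * (if b x = b y then 0 else 1) := by
  classical
  obtain ⟨ι, _, w, c, hw, hF⟩ := hF
  let w' : (V → Bool) → ℝ := fun b => ∑ i, if c i = b then w i else 0
  have hw' : ∀ b, 0 ≤ w' b := fun b => Finset.sum_nonneg fun i _ => by
    split_ifs
    · exact hw i
    · exact le_rfl
  have hF' : ∀ x y, F x y = ∑ b, w' b * (if b x = b y then 0 else 1) := by
    intro x y
    rw [hF]
    simp only [w', Finset.sum_mul]
    rw [Finset.sum_comm]
    refine Finset.sum_congr rfl fun i _ => ?_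
    rw [Finset.sum_eq_single (c i)]
    · simp
    · intro b _ hb
      rw [if_neg (fun h => hb h.symm), zero_mul]
    · intro h; exact absurd (Finset.mem_univ _) h
  let w'' : (V → Bool) → ℝ := fun b => if ∃ x y, b x ≠ b y then w' b else 0
  refine ⟨w'', ?_, ?_, ?_⟩
  · intro b
    simp only [w'']
    split_ifs
    · exact hw' b
    · exact le_rfl
  · intro b
    simp only [w'']
    split_ifs with h
    · obtain ⟨x, y, hxy⟩ := h
      refine le_trans ?_ (hM x y)
      rw [hF']
      have h1 : w' b * (if b x = b y then 0 else 1) ≤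
          ∑ b, w' b * (if b x = b y then 0 else 1) :=
        Finset.single_le_sum (f := fun b : V → Bool => w' b * (if b x = b y then (0 : ℝ) else 1))
          (fun b _ => mul_nonneg (hw' b) (by split_ifs <;> norm_num)) (Finset.mem_univ b)
      rw [if_neg hxy, mul_one] at h1
      exact h1
    · exact hM0
  · intro x y
    rw [hF']
    refine Finset.sum_congr rfl fun b _ => ?_
    by_cases hb : b x = b y
    · rw [if_pos hb, mul_zero, mul_zero]
    · have h : ∃ x y, b x ≠ b y := ⟨x, y, hb⟩
      simp only [w'', if_pos h]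

/-- **Closedness of the cone of `L₁` semimetrics.** -/
theorem isL1_limit {V : Type} [Finite V] {d lo : V → V → ℝ}
    (h : ∀ n : ℕ, ∃ F : V → V → ℝ, IsL1 F ∧ (∀ x y, F x y ≤ d x y) ∧
      ∀ x y, (1 - 1 / ((n : ℝ) + 1)) * lo x y ≤ F x y) :
    ∃ F : V → V → ℝ, IsL1 F ∧ (∀ x y, F x y ≤ d x y) ∧ ∀ x y, lo x y ≤ F x y := by
  classical
  have : Fintype V := Fintype.ofFinite V
  set M : ℝ := ∑ x, ∑ y, |d x y| with hM
  have hM0 : 0 ≤ M := Finset.sum_nonneg fun x _ => Finset.sum_nonneg fun y _ => abs_nonneg _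
  have hdM : ∀ x y, d x y ≤ M := by
    intro x y
    calc d x y ≤ |d x y| := le_abs_self _
      _ ≤ ∑ y, |d x y| := Finset.single_le_sum (f := fun y => |d x y|)
          (fun y _ => abs_nonneg _) (Finset.mem_univ y)
      _ ≤ M := Finset.single_le_sum (f := fun x => ∑ y, |d x y|)
          (fun x _ => Finset.sum_nonneg fun y _ => abs_nonneg _) (Finset.mem_univ x)
  choose F hF hFd hFlo using h
  have hw := fun n => exists_weights (hF n) hM0 (fun x y => (hFd n x y).trans (hdM x y))
  choose w hw0 hwM hwF using hw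
  have hcomp : IsCompact (Set.Icc (fun _ => 0 : (V → Bool) → ℝ) (fun _ => M)) := isCompact_Icc
  obtain ⟨v, hv, φ, hφ, hlim⟩ := hcomp.tendsto_subseq (x := w)
    (fun n => ⟨fun b => hw0 n b, fun b => hwM n b⟩)
  have hlimb : ∀ b, Tendsto (fun n => w (φ n) b) atTop (𝓝 (v b)) := by
    intro b
    exact (tendsto_pi_nhds.1 hlim) b
  have hlimF : ∀ x y, Tendsto (fun n => F (φ n) x y) atTop
      (𝓝 (∑ b, v b * (if b x = b y then 0 else 1))) := by
    intro x y
    have h1 : (fun n => F (φ n) x y) =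
        fun n => ∑ b, w (φ n) b * (if b x = b y then 0 else 1) := by
      funext n; exact hwF (φ n) x y
    rw [h1]
    exact tendsto_finsetSum _ fun b _ => (hlimb b).mul_const _
  refine ⟨fun x y => ∑ b, v b * (if b x = b y then 0 else 1), ?_, ?_, ?_⟩
  · exact ⟨V → Bool, inferInstance, v, fun b => b, fun b => hv.1 b, fun x y => rfl⟩
  · intro x y
    exact le_of_tendsto' (hlimF x y) fun n => hFd (φ n) x y
  · intro x y
    have h1 : Tendsto (fun n : ℕ => (1 - 1 / ((n : ℝ) + 1)) * lo x y) atTop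
        (𝓝 ((1 - 0) * lo x y)) :=
      (tendsto_const_nhds.sub tendsto_one_div_add_atTop_nhds_zero_nat).mul_const _
    rw [sub_zero, one_mul] at h1
    have h2 := h1.comp hφ.tendsto_atTop
    exact le_of_tendsto_of_tendsto' h2 (hlimF x y) fun n => hFlo (φ n) x y

end Vale.Agent.P235.R2.H598
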