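/-
P235-M, sums (helper598), part 1: the cone lemma.  From an `L₁` semimetric comparable with a metric
`d` and a `1`-Lipschitz function `a ≥ 0` one gets an `L₁` semimetric comparable with
`min (d x y) (a x + a y)`.
-/
import Vale.Agent.P235.Comp.Core

namespace Vale.Agent.P235.R2.H598

open Vale.Agent.P235

/-- **Cone lemma.** -/
theorem cone {V : Type} [Finite V] {d ρ : V → V → ℝ} {a : V → ℝ} {C : ℝ} (hC : 0 ≤ C)
    (hd : IsMet d) (hρ : IsL1 ρ) (hlow : ∀ x y, d x y ≤ ρ x y) (hup : ∀ x y, ρ x y ≤ C * d x y)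
    (ha : ∀ x, 0 ≤ a x) (hal : ∀ x y, |a x - a y| ≤ d x y) {z0 : V} (hz0 : a z0 = 0) :
    ∃ R : V → V → ℝ, IsL1 R ∧ (∀ x y, min (d x y) (a x + a y) ≤ R x y) ∧
      (∀ x y, R x y ≤ (96 * C + 112) * d x y) ∧ (∀ x y, R x y ≤ 112 * (a x + a y)) := by
  classical
  have : Fintype V := Fintype.ofFinite V
  set K : Set V := {x | 0 < a x} with hK
  have hmemK : ∀ x, x ∈ K ↔ 0 < a x := fun x => Iff.rfl
  have hKc : ∀ x, x ∉ K → a x = 0 := fun x hx => le_antisymm (not_lt.1 hx) (ha x)
  let ρK : K → K → ℝ := fun x y => ρ x y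
  have hρK : IsL1 ρK := hρ.comap (Subtype.val : K → V)
  let J : Finset ℤ := Finset.univ.image fun x : V => Int.log 2 (a x)
  have hJ : ∀ x : V, Int.log 2 (a x) ∈ J := fun x =>
    Finset.mem_image_of_mem _ (Finset.mem_univ x)
  let φ : ℤ → V → ℝ := fun j x => if x ∈ K then prof (a x / 2 ^ j) else 0
  have hφK : ∀ j, ∀ x ∈ K, φ j x = prof (a x / 2 ^ j) := fun j x hx => if_pos hx
  have hφ0 : ∀ j, ∀ x, x ∉ K → φ j x = 0 := fun j x hx => if_neg hx
  have hφn : ∀ j x, 0 ≤ φ j x := by
    intro j x
    by_cases hx : x ∈ K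
    · rw [hφK j x hx]; exact prof_nonneg _
    · rw [hφ0 j x hx]
  have hφ2 : ∀ j x, φ j x ≤ 2 := by
    intro j x
    by_cases hx : x ∈ K
    · rw [hφK j x hx]; exact prof_le _
    · rw [hφ0 j x hx]; norm_num
  have hφl : ∀ j, ∀ x ∈ K, ∀ y ∈ K, (2 : ℝ) ^ j * |φ j x - φ j y| ≤ 2 * |a x - a y| := by
    intro j x hx y hy
    have hj : (0 : ℝ) < 2 ^ j := by positivity
    rw [hφK j x hx, hφK j y hy]
    calc (2 : ℝ) ^ j * |prof (a x / 2 ^ j) - prof (a y / 2 ^ j)|
        ≤ 2 ^ j * (2 * |a x / 2 ^ j - a y / 2 ^ j|) :=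
          mul_le_mul_of_nonneg_left (prof_lip _ _) hj.le
      _ = 2 * |a x - a y| := by
          rw [← sub_div, abs_div, abs_of_pos hj]
          field_simp
  have hS : ∀ j : ℤ, ∃ R : V → V → ℝ, IsL1 R ∧
      (∀ x y : K, R x y ≤ φ j x * ρK x y + 2 ^ j * |φ j x - φ j y|) ∧
      (∀ x y : K, φ j x * (min (ρK x y) (2 ^ j) / 2) - 2 ^ j * |φ j x - φ j y| ≤ R x y) ∧
      (∀ x y : V, y ∉ K → R x y = 2 ^ j * φ j x) := fun j =>
    one_scale hρK (by positivity) (φ j) (hφn j) (hφ0 j)
  choose R hRI hR1 hR2 hR3 using hS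
  have hRn : ∀ j x y, 0 ≤ R j x y := fun j x y => (hRI j).nonneg x y
  -- the sum of `2 ^ j * φ j x`
  have hz0K : z0 ∉ K := by rw [hmemK, hz0]; exact lt_irrefl 0
  have hsumφ : ∀ x, ∑ j ∈ J, (2 : ℝ) ^ j * φ j x ≤ 12 * a x := by
    intro x
    by_cases hx : x ∈ K
    · have hax : 0 < a x := hx
      set A : Finset ℤ := Finset.Icc (Int.log 2 (a x) - 1) (Int.log 2 (a x) + 1) with hA
      have hcard : (A.card : ℝ) = 3 := by
        have h1 : A.card = 3 := by
          rw [hA, Int.card_Icc]
          have : Int.log 2 (a x) + 1 + 1 - (Int.log 2 (a x) - 1) = 3 := by ring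
          rw [this]; rfl
        rw [h1]; norm_num
      have hterm : ∀ j ∈ J, (2 : ℝ) ^ j * φ j x ≤ if j ∈ A then 4 * a x else 0 := by
        intro j _
        by_cases hj : j ∈ A
        · rw [if_pos hj]
          by_cases h0 : φ j x = 0
          · rw [h0, mul_zero]; linarith
          · rw [hφK j x hx] at h0
            have h1 := (prof_ne h0).1
            have hj : (0 : ℝ) < 2 ^ j := by positivity
            rw [lt_div_iff₀ hj] at h1
            calc (2 : ℝ) ^ j * φ j x ≤ 2 ^ j * 2 := mul_le_mul_of_nonneg_left (hφ2 j x) hj.le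
              _ ≤ _ := by linarith
        · rw [if_neg hj]
          have hx0 : φ j x = 0 := by
            rw [hφK j x hx]
            by_contra hne
            exact hj (active hax hne)
          rw [hx0, mul_zero]
      refine (Finset.sum_le_sum hterm).trans ?_
      rw [Finset.sum_ite_mem, Finset.sum_const, nsmul_eq_mul]
      have h2 : ((J ∩ A).card : ℝ) ≤ A.card := by
        exact_mod_cast Finset.card_le_card Finset.inter_subset_right
      rw [hcard] at h2
      have h3 : 0 ≤ 4 * a x := by linarith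
      calc ((J ∩ A).card : ℝ) * (4 * a x) ≤ 3 * (4 * a x) := mul_le_mul_of_nonneg_right h2 h3
        _ = _ := by ring
    · have h1 : ∑ j ∈ J, (2 : ℝ) ^ j * φ j x = 0 :=
        Finset.sum_eq_zero fun j _ => by rw [hφ0 j x hx, mul_zero]
      rw [h1, hKc x hx]; norm_num
  have hsumR : ∀ x y, ∑ j ∈ J, R j x y ≤ 12 * (a x + a y) := by
    intro x y
    calc ∑ j ∈ J, R j x y ≤ ∑ j ∈ J, ((2 : ℝ) ^ j * φ j x + 2 ^ j * φ j y) := by
          refine Finset.sum_le_sum fun j _ => ?_
          have h1 := (hRI j).tri x z0 y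
          rw [(hRI j).symm z0 y, hR3 j x z0 hz0K, hR3 j y z0 hz0K] at h1
          exact h1
      _ = ∑ j ∈ J, (2 : ℝ) ^ j * φ j x + ∑ j ∈ J, (2 : ℝ) ^ j * φ j y := Finset.sum_add_distrib
      _ ≤ 12 * a x + 12 * a y := add_le_add (hsumφ x) (hsumφ y)
      _ = _ := by ring
  have hdn : ∀ x y, 0 ≤ d x y := hd.nonneg
  have hsumRd : ∀ x y, ∑ j ∈ J, R j x y ≤ 12 * (C + 1) * d x y := by
    intro x y
    have hdxy := hdn x y
    have hCd : 0 ≤ C * d x y := mul_nonneg hC hdxy
    by_cases hx : x ∈ K
    · by_cases hy : y ∈ K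
      · set A : Finset ℤ := Finset.Icc (Int.log 2 (a x) - 1) (Int.log 2 (a x) + 1) ∪
          Finset.Icc (Int.log 2 (a y) - 1) (Int.log 2 (a y) + 1) with hA
        have hcard : (A.card : ℝ) ≤ 6 := by
          have h1 : A.card ≤ 6 := by
            refine (Finset.card_union_le _ _).trans ?_
            rw [Int.card_Icc, Int.card_Icc]
            have e1 : (Int.log 2 (a x) + 1 + 1 - (Int.log 2 (a x) - 1)).toNat = 3 := by
              have : Int.log 2 (a x) + 1 + 1 - (Int.log 2 (a x) - 1) = 3 := by ring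
              rw [this]; rfl
            have e2 : (Int.log 2 (a y) + 1 + 1 - (Int.log 2 (a y) - 1)).toNat = 3 := by
              have : Int.log 2 (a y) + 1 + 1 - (Int.log 2 (a y) - 1) = 3 := by ring
              rw [this]; rfl
            rw [e1, e2]
          exact_mod_cast h1
        have hB0 : 0 ≤ 2 * (C * d x y) + 2 * d x y := by positivity
        have hterm : ∀ j ∈ J, R j x y ≤ if j ∈ A then 2 * (C * d x y) + 2 * d x y else 0 := by
          intro j _
          have h1 := hR1 j ⟨x, hx⟩ ⟨y, hy⟩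
          simp only at h1
          by_cases hj : j ∈ A
          · rw [if_pos hj]
            refine h1.trans (add_le_add ?_ ?_)
            · exact mul_le_mul (hφ2 j x) (hup x y) (hρ.nonneg _ _) (by norm_num)
            · refine (hφl j x hx y hy).trans ?_
              have := hal x y
              linarith
          · rw [if_neg hj]
            rw [hA, Finset.mem_union, not_or] at hj
            have hx0 : φ j x = 0 := by
              rw [hφK j x hx]
              by_contra hne
              exact hj.1 (active hx hne)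
            have hy0 : φ j y = 0 := by
              rw [hφK j y hy]
              by_contra hne
              exact hj.2 (active hy hne)
            rw [hx0, hy0] at h1
            simpa using h1
        refine (Finset.sum_le_sum hterm).trans ?_
        rw [Finset.sum_ite_mem, Finset.sum_const, nsmul_eq_mul]
        have h2 : ((J ∩ A).card : ℝ) ≤ A.card := by
          exact_mod_cast Finset.card_le_card Finset.inter_subset_right
        calc ((J ∩ A).card : ℝ) * (2 * (C * d x y) + 2 * d x y)
            ≤ 6 * (2 * (C * d x y) + 2 * d x y) :=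
              mul_le_mul_of_nonneg_right (h2.trans hcard) hB0
          _ = _ := by ring
      · have h1 := hsumR x y
        have h2 := hal x y
        rw [hKc y hy, sub_zero, abs_of_nonneg (ha x)] at h2
        rw [hKc y hy, add_zero] at h1
        linarith
    · have h1 := hsumR x y
      have h2 := hal x y
      rw [hKc x hx, zero_sub, abs_neg, abs_of_nonneg (ha y)] at h2
      rw [hKc x hx, zero_add] at h1
      linarith
  -- lower bound
  have hsingle : ∀ j ∈ J, ∀ x y, R j x y ≤ ∑ j ∈ J, R j x y := fun j hj x y =>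
    Finset.single_le_sum (f := fun j => R j x y) (fun j _ => hRn j x y) hj
  have hlow' : ∀ x y, a y ≤ a x →
      min (d x y) (a x + a y) ≤ 8 * (∑ j ∈ J, R j x y + 2 * |a x - a y|) := by
    intro x y hle
    by_cases hx : x ∈ K
    · have hax : 0 < a x := hx
      have hlog1 : (2 : ℝ) ^ (Int.log 2 (a x)) ≤ a x := Int.zpow_log_le_self (by norm_num) hax
      have hlog2 : a x < 2 * (2 : ℝ) ^ (Int.log 2 (a x)) := by
        have := Int.lt_zpow_succ_log_self (b := 2) (by norm_num) (a x)
        rw [zpow_add_one₀ (by norm_num)] at this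
        push_cast at this
        linarith
      have hj : (0 : ℝ) < 2 ^ (Int.log 2 (a x)) := by positivity
      have hφ1 : 1 ≤ φ (Int.log 2 (a x)) x := by
        rw [hφK _ x hx]
        refine prof_ge ?_ ?_
        · rw [le_div_iff₀ hj, one_mul]; exact hlog1
        · rw [div_le_iff₀ hj]; exact hlog2.le
      have hs := hsingle _ (hJ x) x y
      have habs : 0 ≤ |a x - a y| := abs_nonneg _
      by_cases hy : y ∈ K
      · have h1 := hR2 (Int.log 2 (a x)) ⟨x, hx⟩ ⟨y, hy⟩
        simp only at h1
        have h2 := hφl (Int.log 2 (a x)) x hx y hy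
        have h5 := hlow x y
        have h6 : min (d x y) (a x + a y) / 4 ≤
            min (ρK ⟨x, hx⟩ ⟨y, hy⟩) (2 ^ (Int.log 2 (a x))) := by
          refine le_min ?_ ?_
          · have h7 := min_le_left (d x y) (a x + a y)
            have h8 := hdn x y
            show _ ≤ ρ x y
            linarith
          · have h7 := min_le_right (d x y) (a x + a y)
            linarith
        have h7 : 0 ≤ min (ρK ⟨x, hx⟩ ⟨y, hy⟩) (2 ^ (Int.log 2 (a x))) / 2 := by
          have : 0 ≤ min (ρK ⟨x, hx⟩ ⟨y, hy⟩) ((2 : ℝ) ^ (Int.log 2 (a x))) :=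
            le_min (hρK.nonneg _ _) (by positivity)
          linarith
        have h8 := mul_le_mul_of_nonneg_right hφ1 h7
        rw [one_mul] at h8
        linarith
      · rw [hR3 _ x y hy] at hs
        have h1 := min_le_right (d x y) (a x + a y)
        rw [hKc y hy, add_zero] at h1
        have h2 : a x / 2 ≤ 2 ^ (Int.log 2 (a x)) * φ (Int.log 2 (a x)) x := by
          calc a x / 2 ≤ 2 ^ (Int.log 2 (a x)) * 1 := by linarith
            _ ≤ _ := mul_le_mul_of_nonneg_left hφ1 hj.le
        rw [hKc y hy] at habs ⊢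
        rw [add_zero]
        linarith
    · have h0 : a x = 0 := hKc x hx
      have h1 : a y = 0 := le_antisymm (h0 ▸ hle) (ha y)
      have h2 : 0 ≤ ∑ j ∈ J, R j x y := Finset.sum_nonneg fun j _ => hRn j x y
      have h3 := min_le_right (d x y) (a x + a y)
      have habs : 0 ≤ |a x - a y| := abs_nonneg _
      linarith
  have hσI : IsL1 (fun x y => ∑ j ∈ J, R j x y) := IsL1.sum J (fun j => R j) fun j _ => hRI j
  have hDI : IsL1 (fun x y => 2 * |a x - a y|) := (isL1_line a).smul (by norm_num)
  have hI := (hσI.add hDI).smul (by norm_num : (0 : ℝ) ≤ 8)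
  refine ⟨_, hI, ?_, ?_, ?_⟩
  · intro x y
    show min (d x y) (a x + a y) ≤ 8 * (∑ j ∈ J, R j x y + 2 * |a x - a y|)
    rcases le_total (a y) (a x) with h | h
    · exact hlow' x y h
    · have h1 := hlow' y x h
      rw [hd.symm y x, add_comm (a y), hσI.symm y x, abs_sub_comm (a y)] at h1
      exact h1
  · intro x y
    show 8 * (∑ j ∈ J, R j x y + 2 * |a x - a y|) ≤ _
    have h1 := hsumRd x y
    have h2 := hal x y
    linarith
  · intro x y
    show 8 * (∑ j ∈ J, R j x y + 2 * |a x - a y|) ≤ _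
    have h1 := hsumR x y
    have h2 : |a x - a y| ≤ a x + a y := by
      have := ha x
      have := ha y
      rw [abs_le]; constructor <;> linarith
    linarith

end Vale.Agent.P235.R2.H598
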