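/-
P235-M, sums (helper598), part 2: the shortening lemma.
-/
import Vale.Agent.P235.R2.H598.Cone

namespace Vale.Agent.P235.R2.H598

open Vale.Agent.P235

/-- `L₁` semimetrics comparable with `d`, exact on one prescribed edge and nonexpanding. -/
def Tight {V : Type} (G : SimpleGraph V) (d : V → V → ℝ) (c : ℝ) : Prop :=
  ∀ s t, G.Adj s t → ∃ F : V → V → ℝ, IsL1 F ∧ F s t = d s t ∧ (∀ x y, c * d x y ≤ F x y) ∧
    ∀ x y, F x y ≤ d x y

/-- The same after shortening the edge to any length `D`. -/
def ExactAt {V : Type} (G : SimpleGraph V) (d : V → V → ℝ) (c : ℝ) : Prop :=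
  ∀ s t, G.Adj s t → ∀ D, 0 < D → D ≤ d s t → ∃ F : V → V → ℝ, IsL1 F ∧ F s t = D ∧
    (∀ x y, c * short d s t D x y ≤ F x y) ∧ ∀ x y, F x y ≤ short d s t D x y

section
variable {V : Type} {d F0 : V → V → ℝ} {c : ℝ}

theorem short_nonneg (hd : IsMet d) {s t : V} {D : ℝ} (hD : 0 < D) (x y : V) :
    0 ≤ short d s t D x y := (short_isMet hd hD).nonneg x y

/-- long case: scaling -/
theorem short_long (hc : 0 < c) (hd : IsMet d) (hF : IsL1 F0) (hlow : ∀ x y, c * d x y ≤ F0 x y)
    (hup : ∀ x y, F0 x y ≤ d x y) {s t : V} (hst : F0 s t = d s t) {D : ℝ} (hD : 0 < D)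
    (hD2 : D ≤ d s t) (hlong : d s t ≤ 2 * D) :
    ∃ F : V → V → ℝ, IsL1 F ∧ F s t = D ∧ (∀ x y, c / 2 * short d s t D x y ≤ F x y) ∧
      ∀ x y, F x y ≤ short d s t D x y := by
  have hΔ : 0 < d s t := hD.trans_le hD2
  set r : ℝ := D / d s t with hr
  have hr0 : 0 ≤ r := by positivity
  have hr1 : r ≤ 1 := (div_le_one hΔ).2 hD2
  have hr2 : 1 / 2 ≤ r := by rw [hr, le_div_iff₀ hΔ]; linarith
  have hrD : r * d s t = D := by rw [hr]; field_simp
  have hrle : ∀ x y, r * d x y ≤ d x y := fun x y => by
    have := mul_le_mul_of_nonneg_right hr1 (hd.nonneg x y)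
    linarith
  refine ⟨_, hF.smul hr0, ?_, ?_, ?_⟩
  · show r * F0 s t = D
    rw [hst, hrD]
  · intro x y
    show _ ≤ r * F0 x y
    have h1 := short_le d s t D x y
    have h2 := short_nonneg hd hD (s := s) (t := t) x y
    have h3 := hlow x y
    have h4 := hd.nonneg x y
    calc c / 2 * short d s t D x y ≤ c / 2 * d x y :=
          mul_le_mul_of_nonneg_left h1 (by positivity)
      _ = 1 / 2 * (c * d x y) := by ring
      _ ≤ r * (c * d x y) := mul_le_mul_of_nonneg_right hr2 (by positivity)
      _ ≤ r * F0 x y := mul_le_mul_of_nonneg_left h3 hr0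
  · intro x y
    show r * F0 x y ≤ _
    refine (mul_le_mul_of_nonneg_left (hup x y) hr0).trans ?_
    unfold short
    refine le_min (hrle x y) (le_min ?_ ?_)
    · have h1 := hd.tri x s y
      have h2 := hd.tri s t y
      have h3 := mul_le_mul_of_nonneg_left (h1.trans (add_le_add le_rfl h2)) hr0
      have h4 := hrle x s
      have h5 := hrle t y
      rw [mul_add, mul_add, hrD] at h3
      linarith
    · have h1 := hd.tri x t y
      have h2 := hd.tri t s y
      have h3 := mul_le_mul_of_nonneg_left (h1.trans (add_le_add le_rfl h2)) hr0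
      have h4 := hrle x t
      have h5 := hrle s y
      rw [mul_add, mul_add, hd.symm t s, hrD] at h3
      linarith

/-- short case: truncation -/
theorem short_short [Finite V] (hc : 0 < c) (hc1 : c ≤ 1) (hd : IsMet d) (hF : IsL1 F0)
    (hlow : ∀ x y, c * d x y ≤ F0 x y) (hup : ∀ x y, F0 x y ≤ d x y) {s t : V} {D : ℝ}
    (hD : 0 < D) (hshort : 2 * D ≤ d s t) :
    ∃ F : V → V → ℝ, IsL1 F ∧ F s t = D ∧ (∀ x y, c / 2496 * short d s t D x y ≤ F x y) ∧
      ∀ x y, F x y ≤ short d s t D x y := by
  have hD2 : D ≤ d s t := by linarith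
  set a : V → ℝ := fun x => min (d x s) (d x t) with ha
  have ha0 : ∀ x, 0 ≤ a x := fun x => le_min (hd.nonneg _ _) (hd.nonneg _ _)
  have hal : ∀ x y, |a x - a y| ≤ d x y := by
    intro x y
    refine (abs_min_sub_min_le_max _ _ _ _).trans (max_le ?_ ?_)
    · exact abs_dist_sub hd x y s
    · exact abs_dist_sub hd x y t
  have has : a s = 0 := by
    rw [ha]; simp only; rw [hd.self, min_eq_left (hd.nonneg _ _)]
  have hcinv : (1 : ℝ) ≤ 1 / c := (one_le_div hc).2 hc1
  have hcp : (0 : ℝ) < 1 / c := by positivity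
  obtain ⟨R, hR, hR1, hR2, hR3⟩ := cone (d := d) (ρ := fun x y => 1 / c * F0 x y) (a := a)
    (C := 1 / c) hcp.le hd (hF.smul hcp.le)
    (fun x y => by
      have h := mul_le_mul_of_nonneg_left (hlow x y) hcp.le
      have e : 1 / c * (c * d x y) = d x y := by field_simp
      rw [e] at h; exact h)
    (fun x y => mul_le_mul_of_nonneg_left (hup x y) hcp.le) ha0 hal has
  set M : ℝ := 208 * (1 / c) with hM
  have hM1 : 1 ≤ M := by rw [hM]; linarith
  have hM0 : 0 < M := by linarith
  set ρ := short d s t D with hρ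
  have hρM : IsMet ρ := short_isMet hd hD
  have hρst : ρ s t = D := short_st hd hD hD2
  have hmin : ∀ x y, min (d x y) (a x + a y) ≤ ρ x y := by
    intro x y
    refine le_min (min_le_left _ _) (le_min ?_ ?_)
    · refine (min_le_right _ _).trans ?_
      have h1 : a x ≤ d x s := min_le_left _ _
      have h2 : a y ≤ d y t := min_le_right _ _
      rw [hd.symm y t] at h2
      linarith
    · refine (min_le_right _ _).trans ?_
      have h1 : a x ≤ d x t := min_le_right _ _
      have h2 : a y ≤ d y s := min_le_left _ _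
      rw [hd.symm y s] at h2
      linarith
  have hRρ : ∀ x y, R x y ≤ M * ρ x y := by
    intro x y
    have h1 : R x y ≤ M * d x y := by
      refine (hR2 x y).trans (mul_le_mul_of_nonneg_right ?_ (hd.nonneg x y))
      rw [hM]; linarith
    have h2 : R x y ≤ M * (a x + a y) := by
      refine (hR3 x y).trans (mul_le_mul_of_nonneg_right ?_ (add_nonneg (ha0 x) (ha0 y)))
      rw [hM]; linarith
    have h3 : R x y ≤ M * min (d x y) (a x + a y) := by
      rw [mul_min_of_nonneg _ _ hM0.le]; exact le_min h1 h2
    exact h3.trans (mul_le_mul_of_nonneg_left (hmin x y) hM0.le)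
  -- the first part
  set F1 : V → V → ℝ := fun x y => 1 / (4 * M) * R x y + 1 / 4 * |ρ x s - ρ y s| with hF1
  have hF1L : IsL1 F1 :=
    (hR.smul (by positivity)).add ((isL1_line fun x => ρ x s).smul (by norm_num))
  have hF1up : ∀ x y, F1 x y ≤ ρ x y / 2 := by
    intro x y
    have h1 := mul_le_mul_of_nonneg_left (hRρ x y) (show 0 ≤ 1 / (4 * M) by positivity)
    have e : 1 / (4 * M) * (M * ρ x y) = ρ x y / 4 := by field_simp
    rw [e] at h1
    have h2 := abs_dist_sub hρM x y s
    show 1 / (4 * M) * R x y + 1 / 4 * |ρ x s - ρ y s| ≤ ρ x y / 2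
    linarith
  have hF1low : ∀ x y, 1 / (12 * M) * ρ x y ≤ F1 x y := by
    intro x y
    show 1 / (12 * M) * ρ x y ≤ 1 / (4 * M) * R x y + 1 / 4 * |ρ x s - ρ y s|
    have hL0 : 0 ≤ |ρ x s - ρ y s| := abs_nonneg _
    have hρ0 : 0 ≤ ρ x y := hρM.nonneg x y
    have key : ρ x y ≤ 3 * R x y + 3 * M * |ρ x s - ρ y s| := by
      by_cases hle : d x y ≤ a x + a y
      · have h1 := hR1 x y
        rw [min_eq_left hle] at h1
        have h2 : ρ x y ≤ d x y := short_le _ _ _ _ _ _
        have h3 : 0 ≤ 3 * M * |ρ x s - ρ y s| := by positivity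
        have h4 := hd.nonneg x y
        linarith
      · rw [not_le] at hle
        have h1 := hR1 x y
        rw [min_eq_right hle.le] at h1
        have hρA : ρ x y ≤ a x + a y + D ∧ D - (a x + a y) ≤ |ρ x s - ρ y s| := by
          have hts : ρ t s = D := by rw [hρM.symm]; exact hρst
          rcases min_cases (d x s) (d x t) with ⟨hx, -⟩ | ⟨hx, -⟩ <;>
            rcases min_cases (d y s) (d y t) with ⟨hy, -⟩ | ⟨hy, -⟩
          · exfalso
            have h2 := hd.tri x s y
            rw [hd.symm s y] at h2
            have h3 : a x = d x s := hx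
            have h4 : a y = d y s := hy
            linarith
          · have h3 : a x = d x s := hx
            have h4 : a y = d y t := hy
            constructor
            · have h5 : ρ x y ≤ d x s + D + d t y :=
                (min_le_right _ _).trans (min_le_left _ _)
              rw [hd.symm t y] at h5
              linarith
            · have h5 : ρ x s ≤ d x s := short_le _ _ _ _ _ _
              have h6 : ρ y t ≤ d y t := short_le _ _ _ _ _ _
              have h7 := hρM.tri t y s
              rw [hts, hρM.symm t y] at h7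
              have h8 := neg_abs_le (ρ x s - ρ y s)
              linarith
          · have h3 : a x = d x t := hx
            have h4 : a y = d y s := hy
            constructor
            · have h5 : ρ x y ≤ d x t + D + d s y :=
                (min_le_right _ _).trans (min_le_right _ _)
              rw [hd.symm s y] at h5
              linarith
            · have h5 : ρ y s ≤ d y s := short_le _ _ _ _ _ _
              have h6 : ρ x t ≤ d x t := short_le _ _ _ _ _ _
              have h7 := hρM.tri t x s
              rw [hts, hρM.symm t x] at h7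
              have h8 := le_abs_self (ρ x s - ρ y s)
              linarith
          · exfalso
            have h2 := hd.tri x t y
            rw [hd.symm t y] at h2
            have h3 : a x = d x t := hx
            have h4 : a y = d y t := hy
            linarith
        obtain ⟨h2, h3⟩ := hρA
        have hA0 : 0 ≤ a x + a y := add_nonneg (ha0 x) (ha0 y)
        by_cases h4 : D ≤ 2 * (a x + a y)
        · have h5 : 0 ≤ 3 * M * |ρ x s - ρ y s| := by positivity
          linarith
        · rw [not_le] at h4
          have h5 : |ρ x s - ρ y s| ≤ M * |ρ x s - ρ y s| := by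
            have := mul_le_mul_of_nonneg_right hM1 hL0
            linarith
          have h6 := hR.nonneg x y
          linarith
    have h1 := mul_le_mul_of_nonneg_left key (show 0 ≤ 1 / (12 * M) by positivity)
    have e : 1 / (12 * M) * (3 * R x y + 3 * M * |ρ x s - ρ y s|) =
        1 / (4 * M) * R x y + 1 / 4 * |ρ x s - ρ y s| := by field_simp; ring
    rw [e] at h1
    exact h1
  -- the correction
  set γ : ℝ := D - F1 s t with hγ
  have hst1 := hF1up s t
  rw [hρst] at hst1
  have hst0 := hF1L.nonneg s t
  have hγ0 : 0 < γ := by rw [hγ]; linarith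
  have hγ2 : 2 * γ ≤ d s t := by rw [hγ]; linarith
  set σ := short d s t (2 * γ) with hσ
  have hσM : IsMet σ := short_isMet hd (by linarith)
  have hσst : σ s t = 2 * γ := short_st hd (by linarith) hγ2
  set F2 : V → V → ℝ := fun x y => 1 / 2 * |σ x s - σ y s| with hF2
  have hF2L : IsL1 F2 := (isL1_line fun x => σ x s).smul (by norm_num)
  have hF2up : ∀ x y, F2 x y ≤ d x y / 2 := by
    intro x y
    show 1 / 2 * |σ x s - σ y s| ≤ d x y / 2
    have h1 := abs_dist_sub hσM x y s
    have h2 : σ x y ≤ d x y := short_le _ _ _ _ _ _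
    linarith
  have hF2st : F2 s t = γ := by
    show 1 / 2 * |σ s s - σ t s| = γ
    rw [hσM.self, hσM.symm t s, hσst, zero_sub, abs_neg, abs_of_pos (by linarith)]
    ring
  have hL := hF1L.add hF2L
  have hup' : ∀ x y, F1 x y + F2 x y ≤ d x y := by
    intro x y
    have h1 := hF1up x y
    have h2 := hF2up x y
    have h3 : ρ x y ≤ d x y := short_le _ _ _ _ _ _
    linarith
  have hst' : F1 s t + F2 s t = D := by rw [hF2st, hγ]; ring
  refine ⟨_, hL, hst', ?_, ?_⟩
  · intro x y
    show c / 2496 * ρ x y ≤ F1 x y + F2 x y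
    have h1 := hF1low x y
    have h2 := hF2L.nonneg x y
    have e : 1 / (12 * M) = c / 2496 := by rw [hM]; field_simp; norm_num
    rw [e] at h1
    linarith
  · intro x y
    show F1 x y + F2 x y ≤ ρ x y
    refine le_min (hup' x y) (le_min ?_ ?_)
    · have h1 := hL.tri x s y
      have h2 := hL.tri s t y
      have h3 := hup' x s
      have h4 := hup' t y
      linarith
    · have h1 := hL.tri x t y
      have h2 := hL.tri t s y
      have h3 := hup' x t
      have h4 := hup' s y
      have h5 := hL.symm t s
      linarith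

end

/-- **Shortening lemma.** -/
theorem Tight.exactAt {V : Type} [Finite V] {G : SimpleGraph V} {d : V → V → ℝ} {c : ℝ}
    (hc : 0 < c) (hc1 : c ≤ 1) (hd : IsMet d) (h : Tight G d c) : ExactAt G d (c / 2496) := by
  intro s t hst D hD hD2
  obtain ⟨F0, hF, hex, hlow, hup⟩ := h s t hst
  rcases le_total (d s t) (2 * D) with h1 | h1
  · obtain ⟨F, h2, h3, h4, h5⟩ := short_long hc hd hF hlow hup hex hD hD2 h1
    refine ⟨F, h2, h3, fun x y => ?_, h5⟩
    refine le_trans (mul_le_mul_of_nonneg_right ?_ (short_nonneg hd hD x y)) (h4 x y)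
    linarith
  · exact short_short hc hc1 hd hF hlow hup hD h1

theorem ExactAt.mono {V : Type} {G : SimpleGraph V} {d : V → V → ℝ} {c c' : ℝ}
    (hd : IsMet d) (h : ExactAt G d c) (hc : c' ≤ c) : ExactAt G d c' := by
  intro s t hst D hD hD2
  obtain ⟨F, h1, h2, h3, h4⟩ := h s t hst D hD hD2
  exact ⟨F, h1, h2, fun x y =>
    (mul_le_mul_of_nonneg_right hc (short_nonneg hd hD x y)).trans (h3 x y), h4⟩

end Vale.Agent.P235.R2.H598
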