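/-
P235-M, sums (helper598), part 5: the bag embedding is exact inside the bags.
-/
import Vale.Agent.P235.R2.RED.Bags2
import Vale.Agent.P235.R2.H168.Bags
import Vale.Agent.P235.R2.H598.Clos
import Vale.Agent.P235.R2.H598.Short
import Vale.Agent.P235.H105.Sum

namespace Vale.Agent.P235.R2.H598

open Vale.Agent.P235 Vale.Agent.P235.Red Equiv VPBruhat Finset

section cuts

variable {V : Type} {h : V → ℕ} {B : ℕ → Set V} {N T : ℕ}

/-- **Integral core** (551), with the lower bound by the height difference. -/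
theorem core2 {f : ℕ → ℝ} (hf : MStar f) (hfN : 0 ≤ f N)
    (hc : (bagGraph B N).Connected)
    (every : ∀ v, ∃ i ≤ N, v ∈ B i)
    (convex : ∀ v i j k, i ≤ j → j ≤ k → k ≤ N → v ∈ B i → v ∈ B k → v ∈ B j)
    (lo : ∀ x y, dN h B N x y ≤ h x + h y) (hi : ∀ x y, dN h B N x y + h x + h y ≤ 2 * T)
    (hT : ∀ x, h x ≤ T) :
    ∃ (Ω : Type) (_ : Fintype Ω) (p : Ω → ℝ) (X : Ω → V → ℝ), (∀ ω, 0 ≤ p ω) ∧
      (∀ i ≤ N, ∀ x ∈ B i, ∀ y ∈ B i, ∑ ω, p ω * |X ω x - X ω y| ≤ (nd (h x) (h y) : ℝ)) ∧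
      (∀ x y, (dN h B N x y : ℝ) ≤ (1 + 2 * f N) * ∑ ω, p ω * |X ω x - X ω y|) ∧
      (∀ x y, (nd (h x) (h y) : ℝ) ≤ ∑ ω, p ω * |X ω x - X ω y|) := by
  classical
  obtain ⟨Ω, _, p, v, hp, hp1, hv, hserve⟩ := hf N T (keep h B)
  choose idx hidx hmem using every
  let S : Ω → V → Finset (Fin T) := fun ω x => lab (v ω) (idx x) (h x)
  -- independence of the choice of the bag
  have hle : ∀ ω x i k, i ≤ k → k ≤ N → x ∈ B i → x ∈ B k →
      lab (v ω) k (h x) = lab (v ω) i (h x) := by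
    intro ω x i k hik hk hi' hk'
    obtain ⟨m, rfl⟩ := Nat.exists_eq_add_of_le hik
    refine lab_const (hv ω) m fun j h1 h2 => ?_
    exact ⟨x, convex x i j (i + m) h1 (by omega) hk hi' hk',
      convex x i (j + 1) (i + m) (by omega) (by omega) hk hi' hk', rfl⟩
  have hS : ∀ ω x i, i ≤ N → x ∈ B i → S ω x = lab (v ω) i (h x) := by
    intro ω x i hi' hx
    rcases le_total i (idx x) with h1 | h1
    · exact hle ω x i (idx x) h1 (hidx x) hx (hmem x)
    · exact (hle ω x (idx x) i h1 hi' (hmem x) hx).symm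
  set ρ : V → V → ℝ := fun x y => ∑ ω, p ω * dd (S ω x) (S ω y) with hρ
  have hρc : ∀ x y, ρ x y = ρ y x := fun x y =>
    Finset.sum_congr rfl fun ω _ => by rw [dd_comm]
  have hρ0 : ∀ x y, (nd (h x) (h y) : ℝ) ≤ ρ x y := by
    intro x y
    have h1 : ∀ ω, p ω * (nd (h x) (h y) : ℝ) ≤ p ω * dd (S ω x) (S ω y) := by
      intro ω
      refine mul_le_mul_of_nonneg_left ?_ (hp ω)
      have := dd_ge (S ω x) (S ω y)
      rw [card_lab _ _ (hT x), card_lab _ _ (hT y), ← nd_cast] at this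
      exact this
    calc (nd (h x) (h y) : ℝ) = ∑ ω, p ω * (nd (h x) (h y) : ℝ) := by
          rw [← Finset.sum_mul, hp1, one_mul]
      _ ≤ _ := Finset.sum_le_sum fun ω _ => h1 ω
  have hup : ∀ i ≤ N, ∀ x ∈ B i, ∀ y ∈ B i, ρ x y ≤ (nd (h x) (h y) : ℝ) := by
    intro i hi' x hx y hy
    have h1 : ∀ ω, p ω * dd (S ω x) (S ω y) = p ω * (nd (h x) (h y) : ℝ) := by
      intro ω
      rw [hS ω x i hi' hx, hS ω y i hi' hy, dd_lab_level _ _ (hT x) (hT y), ← nd_cast]
    rw [hρ]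
    simp only [h1]
    rw [← Finset.sum_mul, hp1, one_mul]
  have hlow : ∀ x y, idx x ≤ idx y → (dN h B N x y : ℝ) ≤ (1 + 2 * f N) * ρ x y := by
    intro x y hxy
    obtain ⟨m, hm⟩ := Nat.exists_eq_add_of_le hxy
    have hiy := hidx y
    rw [hm] at hiy
    have hd : DistFrom h B N T x (dN h B N x) := by
      refine ⟨dN_self x, fun i hi' y hy z hz => dN_lip hc x hi' hy hz, ?_, ?_, lo x, hi x, hT⟩
      · intro y
        obtain ⟨w, hw⟩ := dN_attained (h := h) hc x y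
        rw [← hw]; exact walk_ge w
      · intro y
        obtain ⟨w, hw⟩ := dN_attained (h := h) hc x y
        rw [← hw]; exact walk_par w
    have hy' : y ∈ B (idx x + m) := by rw [← hm]; exact hmem y
    obtain ⟨w, hw, hdw⟩ := exists_config hd hiy (hmem x) hy'
    have h1 := hserve (idx x) m (h x) hiy w hw
    have h2 : ∀ ω, 2 * (flux (h x) (win (v ω) (idx x) m) : ℝ) ≤
        dd (S ω x) (S ω y) + (nd (h x) (h y) : ℝ) := by
      intro ω
      rw [← dd_lab_win]
      have e1 : S ω y = lab (v ω) (idx x + m) (h y) := hS ω y _ hiy hy'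
      refine (dd_tri _ (S ω y) _).trans ?_
      rw [e1, dd_lab_level _ _ (hT y) (hT x), ← nd_cast, nd_comm (h y) (h x)]
    have h3 : 2 * ∑ ω, p ω * (flux (h x) (win (v ω) (idx x) m) : ℝ) ≤
        ρ x y + (nd (h x) (h y) : ℝ) := by
      calc 2 * ∑ ω, p ω * (flux (h x) (win (v ω) (idx x) m) : ℝ)
          = ∑ ω, p ω * (2 * (flux (h x) (win (v ω) (idx x) m) : ℝ)) := by
            rw [Finset.mul_sum]; exact Finset.sum_congr rfl fun _ _ => by ring
        _ ≤ ∑ ω, p ω * (dd (S ω x) (S ω y) + (nd (h x) (h y) : ℝ)) :=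
            Finset.sum_le_sum fun ω _ => mul_le_mul_of_nonneg_left (h2 ω) (hp ω)
        _ = _ := by
            rw [hρ]; simp only [mul_add, Finset.sum_add_distrib]
            rw [← Finset.sum_mul, hp1, one_mul]
    have h4 := hρ0 x y
    have h5 : (dN h B N x y : ℝ) ≤
        2 * (flux (h x) (win w (idx x) m) : ℝ) + (nd (h x) (h y) : ℝ) := by exact_mod_cast hdw
    have h6 : f N * (2 * ∑ ω, p ω * (flux (h x) (win (v ω) (idx x) m) : ℝ)) ≤
        f N * (2 * ρ x y) := mul_le_mul_of_nonneg_left (by linarith) hfN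
    calc (dN h B N x y : ℝ) ≤ 2 * (flux (h x) (win w (idx x) m) : ℝ) + (nd (h x) (h y) : ℝ) := h5
      _ ≤ f N * (2 * ∑ ω, p ω * (flux (h x) (win (v ω) (idx x) m) : ℝ)) + ρ x y := by linarith
      _ ≤ f N * (2 * ρ x y) + ρ x y := by linarith
      _ = _ := by ring
  have hlow' : ∀ x y, (dN h B N x y : ℝ) ≤ (1 + 2 * f N) * ρ x y := by
    intro x y
    rcases le_total (idx x) (idx y) with h1 | h1
    · exact hlow x y h1
    · rw [dN_comm hc, hρc]; exact hlow y x h1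
  have hsum : ∀ x y, ∑ q : Ω × Fin T, p q.1 *
      |(if q.2 ∈ S q.1 x then (1 : ℝ) else 0) - (if q.2 ∈ S q.1 y then (1 : ℝ) else 0)| =
      ρ x y := by
    intro x y
    rw [Fintype.sum_prod_type]
    refine Finset.sum_congr rfl fun ω _ => ?_
    rw [dd, Finset.mul_sum]
  refine ⟨Ω × Fin T, inferInstance, fun q => p q.1,
    fun q x => if q.2 ∈ S q.1 x then (1 : ℝ) else 0, fun q => hp q.1, ?_, ?_, ?_⟩
  · intro i hi' x hx y hy
    rw [hsum]; exact hup i hi' x hx y hy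
  · intro x y
    rw [hsum]; exact hlow' x y
  · intro x y
    rw [hsum]; exact hρ0 x y

end cuts

/-- a graph that generates a metric is connected -/
theorem reachable_of_gen {V : Type} {G : SimpleGraph V} {d : V → V → ℝ} (hd : IsMet d)
    (hG : Gen G d) (x y : V) : G.Reachable x y := by
  classical
  by_contra hxy
  have h1 := hG (fun z => if G.Reachable x z then d x y + 1 else 0) (by
    intro u v huv
    have h2 : G.Reachable x u ↔ G.Reachable x v :=
      ⟨fun h => h.trans huv.reachable, fun h => h.trans huv.symm.reachable⟩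
    simp only [h2, sub_self, abs_zero]
    exact hd.nonneg u v) x y
  have h3 : G.Reachable x x := SimpleGraph.Reachable.refl x
  simp only [h3, if_true, if_neg hxy, sub_zero] at h1
  have h0 := hd.nonneg x y
  rw [abs_of_nonneg (by linarith)] at h1
  linarith

theorem exists_min_dist {V : Type} [Finite V] {d : V → V → ℝ} (hd : IsMet d) :
    ∃ δ : ℝ, 0 < δ ∧ ∀ x y, x ≠ y → δ ≤ d x y := by
  have hfin : (insert (1 : ℝ) ((fun q : V × V => d q.1 q.2) '' {q | q.1 ≠ q.2})).Finite :=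
    ((Set.toFinite _).image _).insert 1
  obtain ⟨δ, hδ, hmin⟩ := Set.exists_min_image _ (fun z : ℝ => z) hfin (Set.insert_nonempty _ _)
  refine ⟨δ, ?_, fun x y hxy => hmin _ (Or.inr ⟨(x, y), hxy, rfl⟩)⟩
  rcases hδ with rfl | ⟨q, hq, rfl⟩
  · exact one_pos
  · exact hd.pos _ _ hq

open Classical in
/-- the lower bound of the bag embedding -/
noncomputable def lo {V : Type} (d : V → V → ℝ) (N : ℕ) (B : ℕ → Set V) (K : ℝ) (x y : V) : ℝ :=
  if ∃ i ≤ N, x ∈ B i ∧ y ∈ B i then d x y else d x y / K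

theorem approx {f : ℕ → ℝ} (hf : MStar f) {V : Type} [Finite V] {G : SimpleGraph V}
    {d : V → V → ℝ} (hd : IsMet d) (hG : Gen G d) {h : V → ℝ} {N : ℕ} {B : ℕ → Set V}
    (every : ∀ v, ∃ i ≤ N, v ∈ B i) (cover : ∀ u v, G.Adj u v → ∃ i ≤ N, u ∈ B i ∧ v ∈ B i)
    (line : ∀ i ≤ N, ∀ u ∈ B i, ∀ v ∈ B i, d u v = |h u - h v|)
    (convex : ∀ v i j k, i ≤ j → j ≤ k → k ≤ N → v ∈ B i → v ∈ B k → v ∈ B j)
    (hfN : 0 ≤ f N) (k : ℕ) :
    ∃ F : V → V → ℝ, IsL1 F ∧ (∀ x y, F x y ≤ d x y) ∧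
      ∀ x y, (1 - 1 / ((k : ℝ) + 1)) * lo d N B (1 + 2 * f N) x y ≤ F x y := by
  classical
  rcases isEmpty_or_nonempty V with hV | hV
  · exact ⟨fun _ _ => 0, IsL1.zero, fun x => (hV.false x).elim, fun x => (hV.false x).elim⟩
  obtain ⟨δ, hδ, hδd⟩ := exists_min_dist hd
  obtain ⟨m, hm⟩ : ∃ m : ℝ, ∀ x, m ≤ h x := by
    obtain ⟨m, hm⟩ := (Set.finite_range h).bddBelow
    exact ⟨m, fun x => hm ⟨x, rfl⟩⟩
  set κ : ℝ := 1 / δ with hκ
  have hκ0 : 0 < κ := by positivity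
  have hκδ : κ * δ = 1 := by rw [hκ]; field_simp
  have hk0 : (0 : ℝ) ≤ k := Nat.cast_nonneg k
  set K : ℝ := 2 * κ * ((k : ℝ) + 1) with hK
  have hKκ : κ < K := by rw [hK]; nlinarith
  have hK0 : 0 < K := hκ0.trans hKκ
  set h0 : V → ℕ := fun x => ⌊K * (h x - m)⌋₊ with hh0
  have hround : ∀ i ≤ N, ∀ x ∈ B i, ∀ y ∈ B i,
      (K - κ) * d x y ≤ (nd (h0 x) (h0 y) : ℝ) ∧
        (nd (h0 x) (h0 y) : ℝ) ≤ (K + κ) * d x y := by
    intro i hi x hx y hy
    by_cases hxy : x = y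
    · subst hxy
      rw [hd.self]; simp [nd]
    · have h1 := hδd x y hxy
      have h2 := line i hi x hx y hy
      have h3 := floor_diff (a := K * (h x - m)) (b := K * (h y - m))
        (mul_nonneg hK0.le (by linarith [hm x])) (mul_nonneg hK0.le (by linarith [hm y]))
      have h4 : K * (h x - m) - K * (h y - m) = K * (h x - h y) := by ring
      rw [h4, abs_mul, abs_of_pos hK0, ← h2] at h3
      have h5 : 1 ≤ κ * d x y := by
        rw [← hκδ]; exact mul_le_mul_of_nonneg_left h1 hκ0.le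
      constructor
      · have := h3.1; linarith
      · have := h3.2; linarith
  have hGle : ∀ u v, G.Adj u v → (bagGraph B N).Adj u v := fun u v huv => by
    obtain ⟨i, hi, h1, h2⟩ := cover u v huv
    exact ⟨huv.ne, i, hi, h1, h2⟩
  have hbc : (bagGraph B N).Connected := by
    rw [SimpleGraph.connected_iff]
    refine ⟨fun x y => (reachable_of_gen hd hG x y).mono ?_, hV⟩
    intro u v huv
    exact hGle u v huv
  obtain ⟨D, hD⟩ : ∃ D : ℕ, ∀ x y, dN h0 B N x y ≤ D := by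
    obtain ⟨D, hD⟩ := (Set.finite_range fun q : V × V => dN h0 B N q.1 q.2).bddAbove
    exact ⟨D, fun x y => hD ⟨(x, y), rfl⟩⟩
  obtain ⟨E, hE⟩ : ∃ E : ℕ, ∀ x, h0 x ≤ E := by
    obtain ⟨E, hE⟩ := (Set.finite_range h0).bddAbove
    exact ⟨E, fun x => hE ⟨x, rfl⟩⟩
  set h' : V → ℕ := fun x => h0 x + D with hh'
  have hnd : ∀ x y, nd (h' x) (h' y) = nd (h0 x) (h0 y) := by
    intro x y; unfold nd; simp only [hh']; omega
  have hlen : len h' = len h0 := by
    funext e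
    induction e with
    | _ u v => exact hnd u v
  have hdN : ∀ x y, dN h' B N x y = dN h0 B N x y := by
    intro x y; unfold dN; rw [hlen]
  obtain ⟨Ω, _, p, X, hp, h1, h2, h3⟩ := core2 (h := h') (B := B) (N := N) (T := 2 * D + E) hf
    hfN hbc every convex
    (by intro x y; rw [hdN]; simp only [hh']; have := hD x y; omega)
    (by intro x y; rw [hdN]; simp only [hh']; have := hD x y; have := hE x; have := hE y; omega)
    (by intro x; simp only [hh']; have := hE x; omega)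
  set ρ : V → V → ℝ := fun x y => ∑ ω, p ω * |X ω x - X ω y| with hρ
  have hρL : IsL1 ρ := IsL1.sum Finset.univ (fun ω x y => p ω * |X ω x - X ω y|)
    fun ω _ => (isL1_line (X ω)).smul (hp ω)
  have hwalk : ∀ x y, ∀ w : (bagGraph B N).Walk x y,
      (K - κ) * d x y ≤ ((w.edges.map (len h0)).sum : ℝ) := by
    intro x y w
    induction w with
    | nil => rw [hd.self]; simp
    | @cons a b c hab q ih =>
      rw [SimpleGraph.Walk.edges_cons, List.map_cons, List.sum_cons, len_mk]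
      obtain ⟨-, i, hi, ha, hb'⟩ := hab
      have h3 := (hround i hi a ha b hb').1
      have h4 := hd.tri a b c
      have h5 : (K - κ) * d a c ≤ (K - κ) * (d a b + d b c) :=
        mul_le_mul_of_nonneg_left h4 (by linarith)
      push_cast
      push_cast at ih
      linarith
  have hlow : ∀ x y, (K - κ) * d x y ≤ (1 + 2 * f N) * ρ x y := by
    intro x y
    refine le_trans ?_ (h2 x y)
    rw [hdN]
    obtain ⟨w, hw⟩ := dN_attained (h := h0) hbc x y
    rw [← hw]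
    exact hwalk x y w
  have hKκ' : 0 < K + κ := by linarith
  have hFL := hρL.smul (show 0 ≤ 1 / (K + κ) by positivity)
  refine ⟨_, hFL, ?_, ?_⟩
  · refine hFL.le_of_gen hG fun u v huv => ?_
    obtain ⟨i, hi, hu, hv⟩ := cover u v huv
    have h4 := h1 i hi u hu v hv
    rw [hnd] at h4
    have h5 := h4.trans (hround i hi u hu v hv).2
    show 1 / (K + κ) * ρ u v ≤ d u v
    rw [one_div, inv_mul_le_iff₀ hKκ']
    exact h5
  · intro x y
    show _ ≤ 1 / (K + κ) * ρ x y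
    rw [show 1 / (K + κ) * ρ x y = (K + κ)⁻¹ * ρ x y by rw [one_div], le_inv_mul_iff₀ hKκ']
    have hk1 : (0 : ℝ) < (k : ℝ) + 1 := by linarith
    have e0 : 1 / ((k : ℝ) + 1) ≤ 1 := by rw [div_le_one hk1]; linarith
    have e1 : (K + κ) * (1 - 1 / ((k : ℝ) + 1)) ≤ K - κ := by
      have e2 : (K + κ) * (1 - 1 / ((k : ℝ) + 1)) = K - κ - κ * (1 / ((k : ℝ) + 1)) := by
        rw [hK]; field_simp; ring
      have e3 : 0 ≤ κ * (1 / ((k : ℝ) + 1)) := by positivity
      linarith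
    have hdn := hd.nonneg x y
    unfold lo
    split_ifs with hxy
    · obtain ⟨i, hi, hx, hy⟩ := hxy
      have h4 := (hround i hi x hx y hy).1
      have h5 := h3 x y
      rw [hnd] at h5
      have h6 := mul_le_mul_of_nonneg_right e1 hdn
      linarith
    · have hf1 : 0 < 1 + 2 * f N := by linarith
      have h4 := hlow x y
      have h6 : (K + κ) * (1 - 1 / ((k : ℝ) + 1)) * (d x y / (1 + 2 * f N)) ≤
          (K - κ) * (d x y / (1 + 2 * f N)) := mul_le_mul_of_nonneg_right e1 (by positivity)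
      have h7 : (K - κ) * (d x y / (1 + 2 * f N)) ≤ ρ x y := by
        rw [← mul_div_assoc, div_le_iff₀ hf1]
        linarith
      linarith

/-- **The bag theorem, exact form**: the `L₁` semimetric is `≤ d`, equal to `d` inside the bags and
`≥ d / (1 + 2 f N)`. -/
theorem exact_bags {f : ℕ → ℝ} (hf : MStar f) {V : Type} [Finite V] {G : SimpleGraph V}
    {d : V → V → ℝ} (hd : IsMet d) (hG : Gen G d) {N : ℕ} {B : ℕ → Set V}
    (hB : VPRed.LineBags d N B) (hE : ∀ u v, G.Adj u v → ∃ i, i ≤ N ∧ u ∈ B i ∧ v ∈ B i)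
    (hfN : 0 ≤ f N) :
    ∃ F : V → V → ℝ, IsL1 F ∧ (∀ x y, F x y ≤ d x y) ∧
      (∀ x y, 1 / (1 + 2 * f N) * d x y ≤ F x y) ∧
      ∀ i ≤ N, ∀ x ∈ B i, ∀ y ∈ B i, F x y = d x y := by
  obtain ⟨h, hh⟩ := hB.height
  obtain ⟨F, h1, h2, h3⟩ := isL1_limit (fun k => approx hf hd hG (h := h)
    (fun v => by obtain ⟨i, hi, hv⟩ := hB.cover v; exact ⟨i, hi, hv⟩)
    (fun u v huv => by obtain ⟨i, hi, hu, hv⟩ := hE u v huv; exact ⟨i, hi, hu, hv⟩)
    (fun i hi u hu v hv => hh i hi u hu v hv)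
    (fun v i j k hij hjk hk hi hk' => hB.conv i j k hij hjk hk v hi hk') hfN k)
  refine ⟨F, h1, h2, ?_, ?_⟩
  · intro x y
    refine le_trans ?_ (h3 x y)
    unfold lo
    have hd0 := hd.nonneg x y
    split_ifs
    · have h4 : 1 / (1 + 2 * f N) ≤ 1 := by
        rw [div_le_one (by linarith)]; linarith
      calc 1 / (1 + 2 * f N) * d x y ≤ 1 * d x y := mul_le_mul_of_nonneg_right h4 hd0
        _ = _ := one_mul _
    · rw [one_div, inv_mul_eq_div]
  · intro i hi x hx y hy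
    refine le_antisymm (h2 x y) ?_
    have h4 := h3 x y
    unfold lo at h4
    rw [if_pos ⟨i, hi, hx, hy⟩] at h4
    exact h4

/-- bags give `Tight` -/
theorem tight_of_bags {f : ℕ → ℝ} (hf : MStar f) {V : Type} [Finite V] {G : SimpleGraph V}
    {d : V → V → ℝ} (hd : IsMet d) (hG : Gen G d) {N : ℕ} {B : ℕ → Set V}
    (hB : VPRed.LineBags d N B) (hE : ∀ u v, G.Adj u v → ∃ i, i ≤ N ∧ u ∈ B i ∧ v ∈ B i)
    (hfN : 0 ≤ f N) : Tight G d (1 / (1 + 2 * f N)) := by
  intro s t hst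
  obtain ⟨F, h1, h2, h3, h4⟩ := exact_bags hf hd hG hB hE hfN
  obtain ⟨i, hi, hs, ht⟩ := hE s t hst
  exact ⟨F, h1, h4 i hi s hs t ht, h3, h2⟩

end Vale.Agent.P235.R2.H598
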