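/-
P235-M, sums (helper598), part 6: classes of pairs (graph, metric), closed under gluing along edges
and at vertices.
-/
import Vale.Agent.P235.R2.H598.Piece

namespace Vale.Agent.P235.R2.H598

open Vale.Agent.P235

/-- The closure of the class `Q` of pairs (graph, metric) under gluing along an edge.  The edge may
be a virtual one, of length `d s t`. -/
inductive SumOf (Q : ∀ (V : Type), SimpleGraph V → (V → V → ℝ) → Prop) :
    ∀ {V : Type}, SimpleGraph V → (V → V → ℝ) → Prop
  | base {V : Type} {G : SimpleGraph V} {d : V → V → ℝ} : Q V G d → SumOf Q G d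
  | glue {V : Type} {G : SimpleGraph V} {d : V → V → ℝ} {A B : Set V} {s t : V} :
      G.Adj s t → A ∪ B = Set.univ → A ∩ B = {s, t} →
      (∀ a b, a ∉ B → b ∉ A → ¬ G.Adj a b) →
      SumOf Q (G.induce A) (fun x y => d x y) → SumOf Q (G.induce B) (fun x y => d x y) →
      SumOf Q G d

/-- The closure of the class `P` of pairs (graph, metric) under gluing at a vertex. -/
inductive VSumOf (P : ∀ (V : Type), SimpleGraph V → (V → V → ℝ) → Prop) :
    ∀ {V : Type}, SimpleGraph V → (V → V → ℝ) → Prop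
  | base {V : Type} {G : SimpleGraph V} {d : V → V → ℝ} : P V G d → VSumOf P G d
  | glue {V : Type} {G : SimpleGraph V} {d : V → V → ℝ} {A B : Set V} {v : V} :
      A ∪ B = Set.univ → A ∩ B = {v} → (∀ a b, a ∉ B → b ∉ A → ¬ G.Adj a b) →
      VSumOf P (G.induce A) (fun x y => d x y) → VSumOf P (G.induce B) (fun x y => d x y) →
      VSumOf P G d

theorem main_induct3 {Q : ∀ (V : Type), SimpleGraph V → (V → V → ℝ) → Prop} {c c0 K1 : ℝ}
    (hc : 0 < c) (hc1 : c ≤ 1) (hc0 : c0 = c / 120) (hK : K1 = 4 / c0)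
    (hLL : ∀ (V : Type) [Finite V] (G : SimpleGraph V) (d : V → V → ℝ), Q V G d → IsMet d →
      Gen G d → ExactAt G d c)
    {V : Type} {G : SimpleGraph V} {d : V → V → ℝ} (hE : SumOf Q G d) :
    Finite V → IsMet d → Gen G d → ∀ s t : V, G.Adj s t → ∀ D : ℝ,
      c0 * d s t ≤ D → D ≤ d s t →
      ∃ F : V → V → ℝ, IsL1 F ∧ F s t = D ∧ EmbOn Set.univ G d c0 K1 s t F := by
  have hc0' : 0 < c0 := by rw [hc0]; positivity
  have hK1 : 0 < K1 := by rw [hK]; positivity
  induction hE with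
  | base hp =>
    intro hfin hd hG s t hst D hD1 hD2
    exact base_step2 hc hc1 hc0 hK (hLL _ _ _ hp hd hG) hd hst hD1 hD2
  | @glue V G d A B s t hst hAB hI hno _ _ ihA ihB =>
    intro hfin hd hG s0 t0 hst0 D0 hD1 hD2
    have hsAB : s ∈ A ∩ B := by rw [hI]; exact Or.inl rfl
    have htAB : t ∈ A ∩ B := by rw [hI]; exact Or.inr rfl
    obtain ⟨hsA, hsB⟩ := hsAB
    obtain ⟨htA, htB⟩ := htAB
    have hmem : ∀ u, u ∈ A ∨ u ∈ B := by
      intro u
      have : u ∈ A ∪ B := by rw [hAB]; trivial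
      exact this
    have hedge : ∀ u v, G.Adj u v → (u ∈ A ∧ v ∈ A) ∨ (u ∈ B ∧ v ∈ B) := by
      intro u v huv
      by_cases hu : u ∈ A
      · by_cases hv : v ∈ A
        · exact Or.inl ⟨hu, hv⟩
        · have hvB := (hmem v).resolve_left hv
          by_cases huB : u ∈ B
          · exact Or.inr ⟨huB, hvB⟩
          · exact absurd huv (hno u v huB hv)
      · have huB := (hmem u).resolve_left hu
        by_cases hvB : v ∈ B
        · exact Or.inr ⟨huB, hvB⟩
        · exact absurd huv.symm (hno v u hvB hu)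
    have hAB' : B ∪ A = Set.univ := by rw [Set.union_comm]; exact hAB
    have hI' : B ∩ A = {s, t} := by rw [Set.inter_comm]; exact hI
    have hno' : ∀ a b, a ∉ A → b ∉ B → ¬ G.Adj a b := fun a b ha hb h => hno b a hb ha h.symm
    have gA := gen_induce hd hG hAB hI hsA htA hst hno
    have gB := gen_induce hd hG hAB' hI' hsB htB hst hno'
    have mA : IsMet (fun x y : A => d x y) := isMet_induce hd
    have mB : IsMet (fun x y : B => d x y) := isMet_induce hd
    rcases hedge s0 t0 hst0 with ⟨hs0, ht0⟩ | ⟨hs0, ht0⟩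
    · obtain ⟨FA, lA, eA, EA⟩ := ihA inferInstance mA gA ⟨s0, hs0⟩ ⟨t0, ht0⟩ hst0 D0 hD1 hD2
      have low := EA.low ⟨s, hsA⟩ trivial ⟨t, htA⟩ trivial hst
      have up := EA.up ⟨s, hsA⟩ trivial ⟨t, htA⟩ trivial hst
      obtain ⟨FB, lB, eB, EB⟩ := ihB inferInstance mB gB ⟨s, hsB⟩ ⟨t, htB⟩ hst
        (FA ⟨s, hsA⟩ ⟨t, htA⟩) low up
      have hDpos : 0 < FA ⟨s, hsA⟩ ⟨t, htA⟩ := (mul_pos hc0' (hd.pos s t hst.ne)).trans_le low
      obtain ⟨F, hF, hFA, hFB, hFAB⟩ := glue A B s t hAB hI FA FB lA lB hsA htA hsB htB _ hDpos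
        rfl eB
      have EA' := EA.transfer hFA
      have EB' := EB.transfer hFB
      refine ⟨F, hF, ?_, ?_⟩
      · have := hFA ⟨s0, hs0⟩ ⟨t0, ht0⟩
        rw [eA] at this
        exact this
      · refine glue_step hd hc0' hK1.le hF hAB hsA htA hst hno hs0 ht0 hst0 EA' EB' ?_
        intro x hx z hz
        have e1 := hFAB ⟨x, hx⟩ ⟨z, hz⟩
        rw [← hFA, ← hFA, ← hFB, ← hFB, ← hFA] at e1
        exact e1
    · obtain ⟨FB, lB, eB, EB⟩ := ihB inferInstance mB gB ⟨s0, hs0⟩ ⟨t0, ht0⟩ hst0 D0 hD1 hD2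
      have low := EB.low ⟨s, hsB⟩ trivial ⟨t, htB⟩ trivial hst
      have up := EB.up ⟨s, hsB⟩ trivial ⟨t, htB⟩ trivial hst
      obtain ⟨FA, lA, eA, EA⟩ := ihA inferInstance mA gA ⟨s, hsA⟩ ⟨t, htA⟩ hst
        (FB ⟨s, hsB⟩ ⟨t, htB⟩) low up
      have hDpos : 0 < FB ⟨s, hsB⟩ ⟨t, htB⟩ := (mul_pos hc0' (hd.pos s t hst.ne)).trans_le low
      obtain ⟨F, hF, hFB, hFA, hFAB⟩ := glue B A s t hAB' hI' FB FA lB lA hsB htB hsA htA _ hDpos
        rfl eA
      have EA' := EA.transfer hFA
      have EB' := EB.transfer hFB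
      refine ⟨F, hF, ?_, ?_⟩
      · have := hFB ⟨s0, hs0⟩ ⟨t0, ht0⟩
        rw [eB] at this
        exact this
      · refine glue_step hd hc0' hK1.le hF hAB' hsB htB hst hno' hs0 ht0 hst0 EB' EA' ?_
        intro x hx z hz
        have e1 := hFAB ⟨x, hx⟩ ⟨z, hz⟩
        rw [← hFA, ← hFA, ← hFB, ← hFB, ← hFB] at e1
        exact e1


/-- `Tight` passes to edge sums, with one constant for all numbers of summands. -/
theorem SumOf.tight {Q : ∀ (V : Type), SimpleGraph V → (V → V → ℝ) → Prop} {c : ℝ}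
    (hc : 0 < c) (hc1 : c ≤ 1)
    (hQ : ∀ (V : Type) [Finite V] (G : SimpleGraph V) (d : V → V → ℝ), Q V G d → IsMet d →
      Gen G d → Tight G d c)
    {V : Type} [Finite V] {G : SimpleGraph V} {d : V → V → ℝ} (hE : SumOf Q G d) (hd : IsMet d)
    (hG : Gen G d) : Tight G d (c / 29952000) := by
  intro s t hst
  have hc' : 0 < c / 2496 := by positivity
  have hle : c / 2496 / 120 * d s t ≤ d s t := by
    have h0 := hd.nonneg s t
    have : c / 2496 / 120 ≤ 1 := by linarith only [hc1]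
    calc c / 2496 / 120 * d s t ≤ 1 * d s t := mul_le_mul_of_nonneg_right this h0
      _ = _ := one_mul _
  obtain ⟨F, hF, hFst, hEmb⟩ := main_induct3 hc' (by linarith only [hc1]) rfl rfl
    (fun V _ G d h hd hG => (hQ V G d h hd hG).exactAt hc hc1 hd) hE inferInstance hd hG s t hst
    (d s t) hle le_rfl
  refine ⟨F, hF, hFst, ?_, hF.le_of_gen hG fun u v huv => hEmb.up u trivial v trivial huv⟩
  intro x y
  have h1 := hEmb.sp' x trivial y trivial
  have h2 : 5 * (5 * (4 / (c / 2496 / 120))) * F x y = (29952000 / c) * F x y := by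
    field_simp; ring
  rw [h2] at h1
  have h3 : c / 29952000 * d x y ≤ c / 29952000 * ((29952000 / c) * F x y) :=
    mul_le_mul_of_nonneg_left h1 (by positivity)
  have h4 : c / 29952000 * ((29952000 / c) * F x y) = F x y := by field_simp
  rw [h4] at h3
  exact h3

/-- an `L₁` semimetric between `c d` and `d` -/
def Emb {V : Type} (d : V → V → ℝ) (c : ℝ) : Prop :=
  ∃ F : V → V → ℝ, IsL1 F ∧ (∀ x y, c * d x y ≤ F x y) ∧ ∀ x y, F x y ≤ d x y

theorem Emb.embedsL1 {V : Type} {d : V → V → ℝ} {c : ℝ} (hc : 0 < c) (h : Emb d c) :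
    EmbedsL1 d (1 / c) := by
  obtain ⟨F, hF, hlow, hup⟩ := h
  refine (hF.smul (by positivity : (0 : ℝ) ≤ 1 / c)).embeds (fun x y => ?_) (fun x y => ?_)
  · have h1 := mul_le_mul_of_nonneg_left (hlow x y) (by positivity : (0 : ℝ) ≤ 1 / c)
    have h2 : 1 / c * (c * d x y) = d x y := by field_simp
    rw [h2] at h1
    exact h1
  · exact mul_le_mul_of_nonneg_left (hup x y) (by positivity)

/-- without edges there is at most one point -/
theorem eq_of_no_edge {V : Type} {G : SimpleGraph V} {d : V → V → ℝ} (hG : Gen G d)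
    (h : ¬ ∃ s t : V, G.Adj s t) (x y : V) : x = y := by
  classical
  by_contra hxy
  have h1 := hG (fun z => if z = x then d x y + 1 else 0)
    (fun u v huv => absurd ⟨u, v, huv⟩ h) x y
  have h2 := hG (fun _ => 0) (fun u v huv => absurd ⟨u, v, huv⟩ h) x y
  simp only [if_true, if_neg (Ne.symm hxy), sub_zero] at h1
  simp only [sub_zero, abs_zero] at h2
  rw [abs_of_nonneg (by linarith)] at h1
  linarith

theorem Tight.emb {V : Type} [Finite V] {G : SimpleGraph V} {d : V → V → ℝ} {c : ℝ}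
    (hd : IsMet d) (hG : Gen G d) (h : Tight G d c) : Emb d c := by
  by_cases hV : ∃ s t : V, G.Adj s t
  · obtain ⟨s, t, hst⟩ := hV
    obtain ⟨F, h1, -, h3, h4⟩ := h s t hst
    exact ⟨F, h1, h3, h4⟩
  · refine ⟨fun _ _ => 0, IsL1.zero, fun x y => ?_, fun x y => hd.nonneg x y⟩
    rw [eq_of_no_edge hG hV x y, hd.self, mul_zero]

/-- gluing at a vertex -/
theorem VSumOf.emb {P : ∀ (V : Type), SimpleGraph V → (V → V → ℝ) → Prop} {c : ℝ}
    (hP : ∀ (V : Type) [Finite V] (G : SimpleGraph V) (d : V → V → ℝ), P V G d → IsMet d →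
      Gen G d → Emb d c)
    {V : Type} {G : SimpleGraph V} {d : V → V → ℝ} (hE : VSumOf P G d) :
    Finite V → IsMet d → Gen G d → Emb d c := by
  classical
  induction hE with
  | base hp => intro hfin hd hG; exact hP _ _ _ hp hd hG
  | @glue V G d A B v hAB hI hno _ _ ihA ihB =>
    intro hfin hd hG
    have hv : v ∈ A ∩ B := by rw [hI]; rfl
    let πA : V → A := fun x => if h : x ∈ A then ⟨x, h⟩ else ⟨v, hv.1⟩
    let πB : V → B := fun x => if h : x ∈ B then ⟨x, h⟩ else ⟨v, hv.2⟩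
    have hπA : ∀ x (h : x ∈ A), πA x = ⟨x, h⟩ := fun x h => dif_pos h
    have hπB : ∀ x (h : x ∈ B), πB x = ⟨x, h⟩ := fun x h => dif_pos h
    have hπA' : ∀ x, x ∈ B → πA x = ⟨v, hv.1⟩ := by
      intro x hx
      by_cases h : x ∈ A
      · have h1 : x ∈ A ∩ B := ⟨h, hx⟩
        rw [hI] at h1
        rw [hπA x h]
        exact Subtype.ext h1
      · exact dif_neg h
    have hπB' : ∀ x, x ∈ A → πB x = ⟨v, hv.2⟩ := by
      intro x hx
      by_cases h : x ∈ B
      · have h1 : x ∈ A ∩ B := ⟨hx, h⟩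
        rw [hI] at h1
        rw [hπB x h]
        exact Subtype.ext h1
      · exact dif_neg h
    have hor : ∀ x : V, x ∈ A ∨ x ∈ B := by
      intro x
      have : x ∈ A ∪ B := by rw [hAB]; trivial
      exact this
    have hside : ∀ x y, G.Adj x y → (x ∈ A ∧ y ∈ A) ∨ (x ∈ B ∧ y ∈ B) := by
      intro x y hxy
      by_contra hcon
      rw [not_or, not_and_or, not_and_or] at hcon
      obtain ⟨h1, h2⟩ := hcon
      rcases h1 with h1 | h1 <;> rcases h2 with h2 | h2
      · exact (hor x).elim h1 h2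
      · exact hno y x h2 h1 hxy.symm
      · exact hno x y h2 h1 hxy
      · exact (hor y).elim h1 h2
    have gA : Gen (G.induce A) (fun x y : A => d x y) := by
      intro f hf x y
      have h1 := hG (fun z => f (πA z)) (fun u w huw => by
        rcases hside u w huw with ⟨hu, hw⟩ | ⟨hu, hw⟩
        · rw [hπA u hu, hπA w hw]
          exact hf ⟨u, hu⟩ ⟨w, hw⟩ huw
        · rw [hπA' u hu, hπA' w hw, sub_self, abs_zero]
          exact hd.nonneg u w) x y
      simp only [hπA x.1 x.2, hπA y.1 y.2] at h1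
      exact h1
    have gB : Gen (G.induce B) (fun x y : B => d x y) := by
      intro f hf x y
      have h1 := hG (fun z => f (πB z)) (fun u w huw => by
        rcases hside u w huw with ⟨hu, hw⟩ | ⟨hu, hw⟩
        · rw [hπB' u hu, hπB' w hw, sub_self, abs_zero]
          exact hd.nonneg u w
        · rw [hπB u hu, hπB w hw]
          exact hf ⟨u, hu⟩ ⟨w, hw⟩ huw) x y
      simp only [hπB x.1 x.2, hπB y.1 y.2] at h1
      exact h1
    obtain ⟨FA, lA, lowA, upA⟩ := ihA inferInstance (isMet_induce hd) gA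
    obtain ⟨FB, lB, lowB, upB⟩ := ihB inferInstance (isMet_induce hd) gB
    have hLL := (lA.comap πA).add (lB.comap πB)
    refine ⟨_, hLL, ?_, ?_⟩
    · intro x y
      show c * d x y ≤ FA (πA x) (πA y) + FB (πB x) (πB y)
      have nA := lA.nonneg (πA x) (πA y)
      have nB := lB.nonneg (πB x) (πB y)
      have hcd : 0 ≤ d x y := hd.nonneg x y
      rcases hor x with hx | hx <;> rcases hor y with hy | hy
      · have h1 : c * d (πA x) (πA y) ≤ FA (πA x) (πA y) := lowA (πA x) (πA y)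
        have e1 : ((πA x : A) : V) = x := by rw [hπA x hx]
        have e2 : ((πA y : A) : V) = y := by rw [hπA y hy]
        rw [e1, e2] at h1
        linarith
      · have h1 : c * d (πA x) (πA y) ≤ FA (πA x) (πA y) := lowA (πA x) (πA y)
        have h2 : c * d (πB x) (πB y) ≤ FB (πB x) (πB y) := lowB (πB x) (πB y)
        have e1 : ((πA x : A) : V) = x := by rw [hπA x hx]
        have e2 : ((πA y : A) : V) = v := by rw [hπA' y hy]
        have e3 : ((πB x : B) : V) = v := by rw [hπB' x hx]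
        have e4 : ((πB y : B) : V) = y := by rw [hπB y hy]
        rw [e1, e2] at h1
        rw [e3, e4] at h2
        by_cases hc : 0 ≤ c
        · have := mul_le_mul_of_nonneg_left (hd.tri x v y) hc
          linarith
        · have : c * d x y ≤ 0 := mul_nonpos_of_nonpos_of_nonneg (not_le.1 hc).le hcd
          linarith
      · have h1 : c * d (πA x) (πA y) ≤ FA (πA x) (πA y) := lowA (πA x) (πA y)
        have h2 : c * d (πB x) (πB y) ≤ FB (πB x) (πB y) := lowB (πB x) (πB y)
        have e1 : ((πA x : A) : V) = v := by rw [hπA' x hx]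
        have e2 : ((πA y : A) : V) = y := by rw [hπA y hy]
        have e3 : ((πB x : B) : V) = x := by rw [hπB x hx]
        have e4 : ((πB y : B) : V) = v := by rw [hπB' y hy]
        rw [e1, e2] at h1
        rw [e3, e4] at h2
        by_cases hc : 0 ≤ c
        · have := mul_le_mul_of_nonneg_left (hd.tri x v y) hc
          linarith
        · have : c * d x y ≤ 0 := mul_nonpos_of_nonpos_of_nonneg (not_le.1 hc).le hcd
          linarith
      · have h1 : c * d (πB x) (πB y) ≤ FB (πB x) (πB y) := lowB (πB x) (πB y)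
        have e1 : ((πB x : B) : V) = x := by rw [hπB x hx]
        have e2 : ((πB y : B) : V) = y := by rw [hπB y hy]
        rw [e1, e2] at h1
        linarith
    · refine hLL.le_of_gen hG fun u w huw => ?_
      show FA (πA u) (πA w) + FB (πB u) (πB w) ≤ d u w
      rcases hside u w huw with ⟨hu, hw⟩ | ⟨hu, hw⟩
      · rw [hπB' u hu, hπB' w hw, lB.self, add_zero, hπA u hu, hπA w hw]
        exact upA ⟨u, hu⟩ ⟨w, hw⟩
      · rw [hπA' u hu, hπA' w hw, lA.self, zero_add, hπB u hu, hπB w hw]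
        exact upB ⟨u, hu⟩ ⟨w, hw⟩

end Vale.Agent.P235.R2.H598
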