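/-
P235-M, sums (helper598), part 7: unlimited sums of line-bag pieces and of tight plane pieces.
-/
import Vale.Agent.P235.R2.H598.Exact
import Vale.Agent.P235.R2.H598.PSum
import Vale.Agent.P235.R2.RED.Final

namespace Vale.Agent.P235.R2.H598

open Vale.Agent.P235 Vale.Agent.P235.Red

/-- A piece: a graph `G` with a metric `d`, such that (bags) `G` has a path decomposition with bags
`B 0, …, B N`, `N ≤ n`, each of which is isometric to a subset of the real line; or (plane) `G` is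
plane with at most `n` vertices, and for two vertices `s`, `t` of one face every edge lies on a
geodesic from `s` to `t`. -/
def Leaf (n : ℕ) (V : Type) (G : SimpleGraph V) (d : V → V → ℝ) : Prop :=
  (∃ (N : ℕ) (B : ℕ → Set V), N ≤ n ∧ VPRed.LineBags d N B ∧
    ∀ u v, G.Adj u v → ∃ i, i ≤ N ∧ u ∈ B i ∧ v ∈ B i) ∨
  (Nat.card V ≤ n ∧ ∃ (σ : Equiv.Perm G.Dart) (d₀ : G.Dart) (s t : V), PlaneMap G σ ∧
    s ∈ onFace σ d₀ ∧ t ∈ onFace σ d₀ ∧ ∀ u v, G.Adj u v →
      d s u + d u v + d v t = d s t ∨ d s v + d v u + d u t = d s t)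

section
variable {V : Type} {G : SimpleGraph V} {d : V → V → ℝ}

/-- lengths of the edges -/
def elen (hd : IsMet d) : Sym2 V → ℝ := Sym2.lift ⟨d, hd.symm⟩

theorem elen_mk (hd : IsMet d) (u v : V) : elen hd s(u, v) = d u v := rfl

theorem elen_pos (hd : IsMet d) : ∀ e ∈ G.edgeSet, 0 < elen hd e := by
  intro e
  induction e using Sym2.inductionOn with
  | hf u v =>
    intro he
    exact hd.pos u v ((SimpleGraph.mem_edgeSet _).1 he).ne

theorem connected_of_gen [Nonempty V] (hd : IsMet d) (hG : Gen G d) : G.Connected := by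
  rw [SimpleGraph.connected_iff]
  exact ⟨fun x y => reachable_of_gen hd hG x y, inferInstance⟩

theorem pathDist_elen [Nonempty V] (hd : IsMet d) (hG : Gen G d) (x y : V) :
    pathDist G (elen hd) x y = d x y := by
  have hc := connected_of_gen hd hG
  apply le_antisymm
  · have h1 := hG (fun z => pathDist G (elen hd) x z) (fun u v huv => by
      have h2 := Red.pd_tri hc (elen_pos hd) x u v
      have h3 := Red.pd_tri hc (elen_pos hd) x v u
      have h4 := Red.pd_adj (elen_pos hd) huv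
      have h5 := Red.pd_comm hc (elen_pos hd) v u
      rw [elen_mk] at h4
      rw [abs_le]; constructor <;> linarith) x y
    simp only [Red.pd_self (elen_pos hd), zero_sub, abs_neg] at h1
    exact (le_abs_self _).trans h1
  · exact VPRed.pd_gen hc (F := d) hd.self hd.tri (fun u v _ => le_of_eq (elen_mk hd u v).symm) x y

/-- the bags of a tight plane piece -/
theorem plane_bags (hRC : RowC) [Finite V] (hd : IsMet d) (hG : Gen G d)
    {σ : Equiv.Perm G.Dart} {d₀ : G.Dart} {s t : V} (hp : PlaneMap G σ) (hs : s ∈ onFace σ d₀)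
    (ht : t ∈ onFace σ d₀) (h : ∀ u v, G.Adj u v →
      d s u + d u v + d v t = d s t ∨ d s v + d v u + d u t = d s t) :
    ∃ B : ℕ → Set V, VPRed.LineBags d (Nat.card V ^ 2) B ∧
      ∀ u v, G.Adj u v → ∃ i, i ≤ Nat.card V ^ 2 ∧ u ∈ B i ∧ v ∈ B i := by
  have : Nonempty V := ⟨s⟩
  have hc := connected_of_gen hd hG
  have hℓ := elen_pos (G := G) hd
  have hpd := pathDist_elen hd hG
  have pos : ∀ u v, G.Adj u v → 0 < elen hd s(u, v) := fun u v ha => hℓ _ (G.mem_edgeSet.2 ha)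
  have htight : ∀ u v, G.Adj u v →
      pathDist G (elen hd) s u + elen hd s(u, v) + pathDist G (elen hd) v t =
        pathDist G (elen hd) s t ∨
      pathDist G (elen hd) s v + elen hd s(u, v) + pathDist G (elen hd) u t =
        pathDist G (elen hd) s t := by
    intro u v huv
    rw [hpd, hpd, hpd, hpd, hpd, elen_mk]
    rcases h u v huv with h1 | h1
    · exact Or.inl h1
    · rw [hd.symm v u] at h1; exact Or.inr h1
  have hst : s ≠ t := by
    rintro rfl
    have ha := d₀.adj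
    have h1 := hd.pos _ _ ha.ne
    have h2 := hd.nonneg s d₀.fst
    have h3 := hd.nonneg s d₀.snd
    have h4 := hd.nonneg d₀.fst s
    have h5 := hd.nonneg d₀.snd s
    have h6 := hd.self s
    have h7 := hd.symm d₀.snd d₀.fst
    rcases h _ _ ha with h | h <;> linarith
  obtain ⟨hU, hl⟩ := F0.rowF0 V G (elen hd) s t hc hst hℓ htight
  obtain ⟨P, hS⟩ := hRC V G σ d₀ (pathDist G (elen hd) s) s t hc hp hs ht hU
  have hB := R2.H673.bags_of_sweep hS hl pos
  refine ⟨P, ⟨?_, ?_, ?_⟩, ?_⟩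
  · intro v
    obtain ⟨i, hi, hv⟩ := hB.every v
    exact ⟨i, hi, hv⟩
  · intro i j k hij hjk hk v hi hk'
    exact hB.convex v i j k hij hjk hk hi hk'
  · intro i hi
    refine ⟨pathDist G (elen hd) s, fun x hx y hy => ?_⟩
    rw [← hpd]
    exact hB.line i hi x hx y hy
  · intro u v huv
    obtain ⟨i, hi, hu, hv⟩ := hB.cover u v huv
    exact ⟨i, hi, hu, hv⟩

end

theorem ll_mono {m n : ℕ} (h : m ≤ n) : ll m ≤ ll n := by
  unfold ll
  exact Nat.log_mono_right (Nat.succ_le_succ (Nat.log_mono_right h))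

/-- leaves are `Tight` -/
theorem Leaf.tight {C : ℝ} (hC : 1 ≤ C) (hM : MStarLL C) (hRC : RowC) {n : ℕ} {V : Type}
    [Finite V] {G : SimpleGraph V} {d : V → V → ℝ} (h : Leaf n V G d) (hd : IsMet d)
    (hG : Gen G d) : Tight G d (1 / (1 + 2 * (C * ((ll n : ℝ) + 4)))) := by
  obtain ⟨N, B, hN, hB, hE⟩ : ∃ (N : ℕ) (B : ℕ → Set V), ll N ≤ ll n + 1 ∧
      VPRed.LineBags d N B ∧ ∀ u v, G.Adj u v → ∃ i, i ≤ N ∧ u ∈ B i ∧ v ∈ B i := by
    rcases h with ⟨N, B, hN, hB, hE⟩ | ⟨hn, σ, d₀, s, t, hp, hs, ht, htight⟩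
    · exact ⟨N, B, (ll_mono hN).trans (Nat.le_succ _), hB, hE⟩
    · obtain ⟨B, hB, hE⟩ := plane_bags hRC hd hG hp hs ht htight
      exact ⟨_, B, (ll_mono (Nat.pow_le_pow_left hn 2)).trans (ll_sq n), hB, hE⟩
  have hN' : (ll N : ℝ) ≤ (ll n : ℝ) + 1 := by exact_mod_cast hN
  have hN0 : (0 : ℝ) ≤ (ll N : ℝ) := Nat.cast_nonneg _
  have hf0 : 0 ≤ C * ((ll N : ℝ) + 3) := by positivity
  have hT := tight_of_bags (f := fun N => C * ((ll N : ℝ) + 3)) hM hd hG hB hE hf0
  intro s t hst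
  obtain ⟨F, h1, h2, h3, h4⟩ := hT s t hst
  refine ⟨F, h1, h2, fun x y => ?_, h4⟩
  refine le_trans (mul_le_mul_of_nonneg_right ?_ (hd.nonneg x y)) (h3 x y)
  have h5 : C * ((ll N : ℝ) + 3) ≤ C * ((ll n : ℝ) + 4) :=
    mul_le_mul_of_nonneg_left (by linarith) (by linarith)
  exact one_div_le_one_div_of_le (by linarith) (by linarith)

/-- **Unlimited sums.** -/
theorem sums_embed {C : ℝ} (hC : 1 ≤ C) (hM : MStarLL C) (hRC : RowC) (n : ℕ) {V : Type}
    [Finite V] {G : SimpleGraph V} {d : V → V → ℝ} (hd : IsMet d) (hG : Gen G d)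
    (h : VSumOf (fun _ G d => SumOf (Leaf n) G d) G d) :
    EmbedsL1 d (29952000 * (9 * C) * ((ll n : ℝ) + 1)) := by
  have hn : (0 : ℝ) ≤ (ll n : ℝ) := Nat.cast_nonneg _
  have hCn : 0 ≤ C * (ll n : ℝ) := mul_nonneg (by linarith) hn
  set c : ℝ := 1 / (1 + 2 * (C * ((ll n : ℝ) + 4))) with hcdef
  have hden : 1 ≤ 1 + 2 * (C * ((ll n : ℝ) + 4)) := by nlinarith
  have hc : 0 < c := by rw [hcdef]; positivity
  have hc1 : c ≤ 1 := by rw [hcdef, div_le_one (by linarith)]; exact hden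
  have hE : Emb d (c / 29952000) :=
    VSumOf.emb (fun V _ G d h hd hG =>
      (SumOf.tight hc hc1 (fun V _ G d h hd hG => h.tight hC hM hRC hd hG) h hd hG).emb hd hG)
      h inferInstance hd hG
  obtain ⟨Ω, m, μ, g, hg⟩ := hE.embedsL1 (by positivity)
  refine ⟨Ω, m, μ, g, fun x y => ⟨(hg x y).1, (hg x y).2.trans ?_⟩⟩
  refine mul_le_mul_of_nonneg_right ?_ (hd.nonneg x y)
  have e : 1 / (c / 29952000) = 29952000 * (1 + 2 * (C * ((ll n : ℝ) + 4))) := by
    rw [hcdef]; field_simp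
  rw [e]
  nlinarith

/-- For graphs: the gluing edges may be edges of a larger graph `G'` (virtual edges `s t`, of length
`pathDist G ℓ s t`). -/
theorem sums_graph {C : ℝ} (hC : 1 ≤ C) (hM : MStarLL C) (hRC : RowC) (n : ℕ) (V : Type)
    [Finite V] (G G' : SimpleGraph V) (ℓ : Sym2 V → ℝ) (hc : G.Connected)
    (hℓ : ∀ e ∈ G.edgeSet, 0 < ℓ e) (hle : G ≤ G')
    (h : VSumOf (fun _ G d => SumOf (Leaf n) G d) G' (pathDist G ℓ)) :
    EmbedsL1 (pathDist G ℓ) (29952000 * (9 * C) * ((ll n : ℝ) + 1)) := by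
  have hd := pathDist_isMet hc hℓ
  refine sums_embed hC hM hRC n hd ?_ h
  intro f hf x y
  exact pathDist_gen hc (fun u v huv => (hf u v (hle huv)).trans (pathDist_adj hℓ huv)) x y

end Vale.Agent.P235.R2.H598
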