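/-
P235-M, sums (helper598), part 8: sums at vertices of edge sums of tight pieces and of pieces with
slopes in [1/D, 1].
-/
import Vale.Agent.P235.R2.H598.Fin
import Vale.Agent.P235.R2.RED.Final2

namespace Vale.Agent.P235.R2.H598

open Vale.Agent.P235 Vale.Agent.P235.Red

/-- A piece with slopes in `[1/D, 1]`: a graph `G` with a metric `d` and a function `h` on the
vertices such that (bags) `G` has a path decomposition with bags `B 0, …, B N`, `N ≤ n`, and
`|h x - h y| ≤ d x y ≤ D |h x - h y|` inside the bags; or (plane) `G` is plane with at most `n`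
vertices, `|h u - h v| ≤ d u v ≤ D |h u - h v|` on the edges, and `h` has only one local minimum
and only one local maximum. -/
def SlopeLeaf (n : ℕ) (D : ℝ) (V : Type) (G : SimpleGraph V) (d : V → V → ℝ) : Prop :=
  ∃ h : V → ℝ,
    (∃ (N : ℕ) (B : ℕ → Set V), N ≤ n ∧ (∀ v, ∃ i, i ≤ N ∧ v ∈ B i) ∧
      (∀ u v, G.Adj u v → ∃ i, i ≤ N ∧ u ∈ B i ∧ v ∈ B i) ∧
      (∀ i j k, i ≤ j → j ≤ k → k ≤ N → ∀ v, v ∈ B i → v ∈ B k → v ∈ B j) ∧
      ∀ i, i ≤ N → ∀ x ∈ B i, ∀ y ∈ B i, |h x - h y| ≤ d x y ∧ d x y ≤ D * |h x - h y|) ∨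
    (Nat.card V ≤ n ∧ ∃ (σ : Equiv.Perm G.Dart) (s t : V), PlaneMap G σ ∧
      (∀ u v, G.Adj u v → |h u - h v| ≤ d u v ∧ d u v ≤ D * |h u - h v|) ∧
      (∀ v, v ≠ s → ∃ u, G.Adj v u ∧ h u < h v) ∧ ∀ v, v ≠ t → ∃ u, G.Adj v u ∧ h v < h u)

/-- an `L₁` embedding with distortion `K` gives `Emb` with `c = 1 / K` -/
theorem emb_of_embedsL1 {V : Type} [Finite V] {d : V → V → ℝ} {c K : ℝ} (hn : ∀ x y, 0 ≤ d x y)
    (h : EmbedsL1 d K) (hc : 0 ≤ c) (hcK : c * K ≤ 1) : Emb d c := by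
  classical
  have := Fintype.ofFinite V
  obtain ⟨ρ, hρS, hle, hup, -⟩ := h.toL1S
  refine ⟨_, hρS.isL1.smul hc, fun x y => mul_le_mul_of_nonneg_left (hle x y) hc, fun x y => ?_⟩
  calc c * ρ x y ≤ c * (K * d x y) := mul_le_mul_of_nonneg_left (hup x y) hc
    _ = c * K * d x y := by ring
    _ ≤ 1 * d x y := mul_le_mul_of_nonneg_right hcK (hn x y)
    _ = d x y := one_mul _

theorem SlopeLeaf.embedsL1 {C : ℝ} (hC : 1 ≤ C) (hM : MStarLL C) {n : ℕ} {D : ℝ} (hD : 1 ≤ D)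
    {V : Type} [Finite V] [Nonempty V] {G : SimpleGraph V} {d : V → V → ℝ}
    (h : SlopeLeaf n D V G d) (hd : IsMet d) (hG : Gen G d) :
    EmbedsL1 d (219073 * 32 * C * D * ((ll n : ℝ) + 1)) := by
  have hc := connected_of_gen hd hG
  have hℓ := elen_pos (G := G) hd
  have hpd : ∀ x y, pathDist G (elen hd) x y = d x y := pathDist_elen hd hG
  have hn : (0 : ℝ) ≤ (ll n : ℝ) := Nat.cast_nonneg _
  have hCD : 0 ≤ C * D := by positivity
  obtain ⟨h, ⟨N, B, hN, hcov, hE, hconv, hh⟩ | ⟨hcard, σ, s, t, hP, hh, hlow, hhigh⟩⟩ := h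
  · have hE1 := bags_slope hC hM V G (elen hd) N B h D hc hℓ hD hcov hE hconv (fun i hi x hx y hy => by
      rw [hpd]; exact hh i hi x hx y hy)
    obtain ⟨Ω, m, μ, g, hg⟩ := hE1
    refine ⟨Ω, m, μ, g, fun x y => ?_⟩
    have h1 := hg x y
    rw [hpd] at h1
    refine ⟨h1.1, h1.2.trans (mul_le_mul_of_nonneg_right ?_ (hd.nonneg x y))⟩
    have h2 : (ll N : ℝ) ≤ (ll n : ℝ) := by exact_mod_cast ll_mono hN
    have h3 : (0 : ℝ) ≤ (ll N : ℝ) := Nat.cast_nonneg _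
    calc 32 * C * D * ((ll N : ℝ) + 1) = 32 * (C * D) * ((ll N : ℝ) + 1) := by ring
      _ ≤ (219073 * 32) * (C * D) * ((ll n : ℝ) + 1) := by
        refine mul_le_mul (by linarith) (by linarith) (by linarith) (by positivity)
      _ = _ := by ring
  · have hE1 := plane_slope_any hC hM V G σ (elen hd) h s t D hc hP hℓ
      (fun u v ha => (hh u v ha).1) (fun u v ha => (hh u v ha).2) hlow hhigh
    obtain ⟨Ω, m, μ, g, hg⟩ := hE1
    refine ⟨Ω, m, μ, g, fun x y => ?_⟩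
    have h1 := hg x y
    rw [hpd] at h1
    refine ⟨h1.1, h1.2.trans (mul_le_mul_of_nonneg_right ?_ (hd.nonneg x y))⟩
    have h2 : (ll (Nat.card V) : ℝ) ≤ (ll n : ℝ) := by exact_mod_cast ll_mono hcard
    exact mul_le_mul_of_nonneg_left (by linarith) (by positivity)

/-- A piece for sums at vertices: an edge sum of tight pieces, or a piece with slopes in
`[1/D, 1]`. -/
def VLeaf (n : ℕ) (D : ℝ) (V : Type) (G : SimpleGraph V) (d : V → V → ℝ) : Prop :=
  SumOf (Leaf n) G d ∨ SlopeLeaf n D V G d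

theorem VLeaf.emb {C : ℝ} (hC : 1 ≤ C) (hM : MStarLL C) (hRC : RowC) {n : ℕ} {D : ℝ} (hD : 1 ≤ D)
    {V : Type} [Finite V] [Nonempty V] {G : SimpleGraph V} {d : V → V → ℝ} (h : VLeaf n D V G d)
    (hd : IsMet d) (hG : Gen G d) :
    Emb d (1 / (29952000 * (9 * C) * D * ((ll n : ℝ) + 1))) := by
  have hn : (0 : ℝ) ≤ (ll n : ℝ) := Nat.cast_nonneg _
  have hpos : 0 < 29952000 * (9 * C) * D * ((ll n : ℝ) + 1) := by positivity
  rcases h with h | h
  · refine emb_of_embedsL1 hd.nonneg (sums_embed hC hM hRC n hd hG (VSumOf.base h)) (by positivity) ?_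
    rw [one_div_mul_eq_div, div_le_one hpos]
    have h1 : 0 ≤ 29952000 * (9 * C) * ((ll n : ℝ) + 1) := by positivity
    calc 29952000 * (9 * C) * ((ll n : ℝ) + 1) ≤ 29952000 * (9 * C) * ((ll n : ℝ) + 1) * D :=
          le_mul_of_one_le_right h1 hD
      _ = _ := by ring
  · refine emb_of_embedsL1 hd.nonneg (h.embedsL1 hC hM hD hd hG) (by positivity) ?_
    rw [one_div_mul_eq_div, div_le_one hpos]
    have h2 : 0 ≤ C * D * ((ll n : ℝ) + 1) := by positivity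
    nlinarith

/-- **Unlimited sums, with slopes.** -/
theorem sums_embed_slope {C : ℝ} (hC : 1 ≤ C) (hM : MStarLL C) (hRC : RowC) (n : ℕ) {D : ℝ}
    (hD : 1 ≤ D) {V : Type} [Finite V] [Nonempty V] {G : SimpleGraph V} {d : V → V → ℝ}
    (hd : IsMet d) (hG : Gen G d) (h : VSumOf (VLeaf n D) G d) :
    EmbedsL1 d (29952000 * (9 * C) * D * ((ll n : ℝ) + 1)) := by
  have hn : (0 : ℝ) ≤ (ll n : ℝ) := Nat.cast_nonneg _
  have hpos : 0 < 29952000 * (9 * C) * D * ((ll n : ℝ) + 1) := by positivity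
  have hE : Emb d (1 / (29952000 * (9 * C) * D * ((ll n : ℝ) + 1))) :=
    VSumOf.emb (fun V _ G d h hd hG => by
      rcases isEmpty_or_nonempty V with hV | hV
      · exact ⟨fun _ _ => 0, IsL1.zero, fun x => hV.elim x, fun x => hV.elim x⟩
      · exact h.emb hC hM hRC hD hd hG) h inferInstance hd hG
  have h1 := hE.embedsL1 (by positivity)
  rwa [one_div_one_div] at h1

/-- For graphs: the gluing edges may be edges of a larger graph `G'` (virtual edges `s t`, of length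
`pathDist G ℓ s t`). -/
theorem sums_graph_slope {C : ℝ} (hC : 1 ≤ C) (hM : MStarLL C) (hRC : RowC) (n : ℕ) (V : Type)
    [Finite V] (G G' : SimpleGraph V) (ℓ : Sym2 V → ℝ) (D : ℝ) (hD : 1 ≤ D) (hc : G.Connected)
    (hℓ : ∀ e ∈ G.edgeSet, 0 < ℓ e) (hle : G ≤ G')
    (h : VSumOf (VLeaf n D) G' (pathDist G ℓ)) :
    EmbedsL1 (pathDist G ℓ) (29952000 * (9 * C) * D * ((ll n : ℝ) + 1)) := by
  have := hc.nonempty
  have hd := pathDist_isMet hc hℓ
  refine sums_embed_slope hC hM hRC n hD hd ?_ h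
  intro f hf x y
  exact pathDist_gen hc (fun u v huv => (hf u v (hle huv)).trans (pathDist_adj hℓ huv)) x y

end Vale.Agent.P235.R2.H598
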