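/-
P235-M, sums (helper598), part 9: sums at vertices of edge sums of tight pieces and of pieces of any
class of weighted graphs which embed with a given distortion.
-/
import Vale.Agent.P235.R2.H598.Fin2
import Vale.Agent.P235.R2.H271.RowC

namespace Vale.Agent.P235.R2.H598

open Vale.Agent.P235 Vale.Agent.P235.Red

/-- A piece for sums at vertices: an edge sum of tight pieces, or a piece `(G, d)` which is a graph
with edge lengths `ℓ` in the class `R`. -/
def Block (n : ℕ) (R : ∀ (V : Type), SimpleGraph V → (Sym2 V → ℝ) → Prop) (V : Type)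
    (G : SimpleGraph V) (d : V → V → ℝ) : Prop :=
  SumOf (Leaf n) G d ∨ ∃ ℓ : Sym2 V → ℝ, (∀ u v, G.Adj u v → ℓ s(u, v) = d u v) ∧ R V G ℓ

/-- the lengths of the edges give back the metric -/
theorem pathDist_of_gen {V : Type} [Nonempty V] {G : SimpleGraph V} {d : V → V → ℝ}
    {ℓ : Sym2 V → ℝ} (hd : IsMet d) (hG : Gen G d) (hℓ : ∀ u v, G.Adj u v → ℓ s(u, v) = d u v)
    (hpos : ∀ e ∈ G.edgeSet, 0 < ℓ e) (x y : V) : pathDist G ℓ x y = d x y := by
  have hc := connected_of_gen hd hG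
  apply le_antisymm
  · have h1 := hG (fun z => pathDist G ℓ x z) (fun u v huv => by
      have h2 := Red.pd_tri hc hpos x u v
      have h3 := Red.pd_tri hc hpos x v u
      have h4 := Red.pd_adj hpos huv
      have h5 := Red.pd_comm hc hpos v u
      rw [hℓ u v huv] at h4
      rw [abs_le]; constructor <;> linarith) x y
    simp only [Red.pd_self hpos, zero_sub, abs_neg] at h1
    exact (le_abs_self _).trans h1
  · exact VPRed.pd_gen hc (F := d) hd.self hd.tri (fun u v huv => (hℓ u v huv).ge) x y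

/-- **Unlimited sums at vertices**, for any class `R` of weighted graphs which embed with
distortion `K`. -/
theorem sums_graph_class {C K : ℝ} (hC : 1 ≤ C) (hM : MStarLL C) (hK : 0 ≤ K) (n : ℕ)
    (R : ∀ (V : Type), SimpleGraph V → (Sym2 V → ℝ) → Prop)
    (hR : ∀ (V : Type) [Finite V] (G : SimpleGraph V) (ℓ : Sym2 V → ℝ), G.Connected →
      (∀ e ∈ G.edgeSet, 0 < ℓ e) → R V G ℓ → EmbedsL1 (pathDist G ℓ) K)
    (V : Type) [Finite V] (G G' : SimpleGraph V) (ℓ : Sym2 V → ℝ) (hc : G.Connected)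
    (hℓ : ∀ e ∈ G.edgeSet, 0 < ℓ e) (hle : G ≤ G')
    (h : VSumOf (Block n R) G' (pathDist G ℓ)) :
    EmbedsL1 (pathDist G ℓ) (29952000 * (9 * C) * ((ll n : ℝ) + 1) + K) := by
  have hn : (0 : ℝ) ≤ (ll n : ℝ) := Nat.cast_nonneg _
  have hpos : 0 < 29952000 * (9 * C) * ((ll n : ℝ) + 1) := by positivity
  have hpos' : 0 < 29952000 * (9 * C) * ((ll n : ℝ) + 1) + K := by linarith
  have := hc.nonempty
  have hd := pathDist_isMet hc hℓ
  have hG : Gen G' (pathDist G ℓ) := by
    intro f hf x y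
    exact pathDist_gen hc (fun u v huv => (hf u v (hle huv)).trans (pathDist_adj hℓ huv)) x y
  have hE : Emb (pathDist G ℓ) (1 / (29952000 * (9 * C) * ((ll n : ℝ) + 1) + K)) := by
    refine VSumOf.emb (fun W _ H d h hd hG => ?_) h inferInstance hd hG
    rcases isEmpty_or_nonempty W with hV | hV
    · exact ⟨fun _ _ => 0, IsL1.zero, fun x => hV.elim x, fun x => hV.elim x⟩
    rcases h with h | ⟨ℓ', hℓ', hR'⟩
    · refine emb_of_embedsL1 hd.nonneg
        (sums_embed hC hM H271.rowC n hd hG (VSumOf.base h)) (by positivity) ?_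
      rw [one_div_mul_eq_div, div_le_one hpos']
      linarith
    · have hp : ∀ e ∈ H.edgeSet, 0 < ℓ' e := by
        intro e
        induction e using Sym2.inductionOn with
        | hf u v =>
          intro he
          have hadj := (SimpleGraph.mem_edgeSet _).1 he
          rw [hℓ' u v hadj]
          exact hd.pos u v hadj.ne
      have hpd := pathDist_of_gen hd hG hℓ' hp
      have h1 := hR W H ℓ' (connected_of_gen hd hG) hp hR'
      have h2 : EmbedsL1 d K := by
        obtain ⟨Ω, m, μ, g, hg⟩ := h1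
        refine ⟨Ω, m, μ, g, fun x y => ?_⟩
        have h3 := hg x y
        rw [hpd] at h3
        exact h3
      refine emb_of_embedsL1 hd.nonneg h2 (by positivity) ?_
      rw [one_div_mul_eq_div, div_le_one hpos']
      linarith
  have h1 := hE.embedsL1 (by positivity)
  rwa [one_div_one_div] at h1

/-- `sums_graph` without the row hypothesis -/
theorem sums_graph' {C : ℝ} (hC : 1 ≤ C) (hM : MStarLL C) (n : ℕ) (V : Type)
    [Finite V] (G G' : SimpleGraph V) (ℓ : Sym2 V → ℝ) (hc : G.Connected)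
    (hℓ : ∀ e ∈ G.edgeSet, 0 < ℓ e) (hle : G ≤ G')
    (h : VSumOf (fun _ G d => SumOf (Leaf n) G d) G' (pathDist G ℓ)) :
    EmbedsL1 (pathDist G ℓ) (29952000 * (9 * C) * ((ll n : ℝ) + 1)) :=
  sums_graph hC hM H271.rowC n V G G' ℓ hc hℓ hle h

/-- `sums_graph_slope` without the row hypothesis -/
theorem sums_graph_slope' {C : ℝ} (hC : 1 ≤ C) (hM : MStarLL C) (n : ℕ) (V : Type)
    [Finite V] (G G' : SimpleGraph V) (ℓ : Sym2 V → ℝ) (D : ℝ) (hD : 1 ≤ D) (hc : G.Connected)
    (hℓ : ∀ e ∈ G.edgeSet, 0 < ℓ e) (hle : G ≤ G')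
    (h : VSumOf (VLeaf n D) G' (pathDist G ℓ)) :
    EmbedsL1 (pathDist G ℓ) (29952000 * (9 * C) * D * ((ll n : ℝ) + 1)) :=
  sums_graph_slope hC hM H271.rowC n V G G' ℓ D hD hc hℓ hle h

end Vale.Agent.P235.R2.H598
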