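/-
P235-M, sums (helper598), part 12: edge sums of tight slabs (at fixed lengths), of pieces isometric
to a subset of `L₁`, of graphs of treewidth at most `3` and of graphs of pathwidth at most `w` (with
any lengths), and sums at vertices of these and of any class which embeds.
-/
import Vale.Agent.P235.R2.H598.Fin3
import Vale.Agent.P235.H536.Spd2

namespace Vale.Agent.P235.R2.H598

open Vale.Agent.P235 Vale.Agent.P235.Red

/-- **Unlimited sums, general form.**  `Q` is any class of tight pieces (constant `c`), `R` any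
class of weighted graphs which embed with distortion `K`. -/
theorem sums_general {Q : ∀ (V : Type), SimpleGraph V → (V → V → ℝ) → Prop} {c K : ℝ}
    (hc0 : 0 < c) (hc1 : c ≤ 1) (hK : 0 ≤ K)
    (hQ : ∀ (V : Type) [Finite V] (G : SimpleGraph V) (d : V → V → ℝ), Q V G d → IsMet d →
      Gen G d → Tight G d c)
    (R : ∀ (V : Type), SimpleGraph V → (Sym2 V → ℝ) → Prop)
    (hR : ∀ (V : Type) [Finite V] (G : SimpleGraph V) (ℓ : Sym2 V → ℝ), G.Connected →
      (∀ e ∈ G.edgeSet, 0 < ℓ e) → R V G ℓ → EmbedsL1 (pathDist G ℓ) K)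
    (V : Type) [Finite V] (G G' : SimpleGraph V) (ℓ : Sym2 V → ℝ) (hc : G.Connected)
    (hℓ : ∀ e ∈ G.edgeSet, 0 < ℓ e) (hle : G ≤ G')
    (h : VSumOf (fun V G d => SumOf Q G d ∨
      ∃ ℓ : Sym2 V → ℝ, (∀ u v, G.Adj u v → ℓ s(u, v) = d u v) ∧ R V G ℓ) G' (pathDist G ℓ)) :
    EmbedsL1 (pathDist G ℓ) (29952000 / c + K) := by
  have hpos : 0 < 29952000 / c := by positivity
  have hpos' : 0 < 29952000 / c + K := by linarith
  have := hc.nonempty
  have hd := pathDist_isMet hc hℓ
  have hG : Gen G' (pathDist G ℓ) := by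
    intro f hf x y
    exact pathDist_gen hc (fun u v huv => (hf u v (hle huv)).trans (pathDist_adj hℓ huv)) x y
  have hE : Emb (pathDist G ℓ) (1 / (29952000 / c + K)) := by
    refine VSumOf.emb (fun W _ H d h hd hG => ?_) h inferInstance hd hG
    rcases isEmpty_or_nonempty W with hV | hV
    · exact ⟨fun _ _ => 0, IsL1.zero, fun x => hV.elim x, fun x => hV.elim x⟩
    rcases h with h | ⟨ℓ', hℓ', hR'⟩
    · have h1 : Emb d (c / 29952000) :=
        (SumOf.tight hc0 hc1 (fun V _ G d h hd hG => hQ V G d h hd hG) h hd hG).emb hd hG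
      obtain ⟨F, hF, hlow, hup⟩ := h1
      refine ⟨F, hF, fun x y => le_trans (mul_le_mul_of_nonneg_right ?_ (hd.nonneg x y))
        (hlow x y), hup⟩
      rw [div_le_iff₀ hpos']
      have e : c / 29952000 * (29952000 / c) = 1 := by field_simp
      have h2 : 0 ≤ c / 29952000 * K := by positivity
      rw [mul_add, e]
      linarith
    · have hp : ∀ e ∈ H.edgeSet, 0 < ℓ' e := by
        intro e
        induction e using Sym2.inductionOn with
        | hf u v =>
          intro he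
          have hadj := (SimpleGraph.mem_edgeSet _).1 he
          rw [hℓ' u v hadj]
          exact hd.pos u v hadj.ne
      have hpd := pathDist_of_gen hd hG hℓ' hp
      have h1 := hR W H ℓ' (connected_of_gen hd hG) hp hR'
      have h2 : EmbedsL1 d K := by
        obtain ⟨Ω, m, μ, g, hg⟩ := h1
        refine ⟨Ω, m, μ, g, fun x y => ?_⟩
        have h3 := hg x y
        rw [hpd] at h3
        exact h3
      refine emb_of_embedsL1 hd.nonneg h2 (by positivity) ?_
      rw [one_div_mul_eq_div, div_le_one hpos']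
      linarith
  have h1 := hE.embedsL1 (by positivity)
  rwa [one_div_one_div] at h1

/-- A tight piece: a `Leaf`, or isometric to a subset of `L₁`, or a graph of treewidth at most `3`,
or of pathwidth at most `w`. -/
def Leaf2 (n w : ℕ) (V : Type) (G : SimpleGraph V) (d : V → V → ℝ) : Prop :=
  Leaf n V G d ∨ EmbedsL1 d 1 ∨ TreewidthLE G 3 ∨ PathwidthLE G w

theorem Tight.mono {V : Type} {G : SimpleGraph V} {d : V → V → ℝ} {c c' : ℝ} (hd : IsMet d)
    (h : Tight G d c) (hc : c' ≤ c) : Tight G d c' := by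
  intro s t hst
  obtain ⟨F, h1, h2, h3, h4⟩ := h s t hst
  exact ⟨F, h1, h2, fun x y => le_trans (mul_le_mul_of_nonneg_right hc (hd.nonneg x y)) (h3 x y),
    h4⟩

theorem tight_of_isometric {V : Type} [Finite V] {G : SimpleGraph V} {d : V → V → ℝ}
    (h : EmbedsL1 d 1) : Tight G d 1 := by
  intro s t hst
  obtain ⟨ρ, hρS, hle, hup, -⟩ := h.toL1S
  have e : ∀ x y, ρ x y = d x y := fun x y => le_antisymm (by simpa using hup x y) (hle x y)
  exact ⟨ρ, hρS.isL1, e s t, fun x y => by rw [e, one_mul], fun x y => (e x y).le⟩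

theorem leaf2_tight : ∃ A : ℝ, 1 ≤ A ∧ ∀ (C : ℝ), 1 ≤ C → MStarLL C → ∀ (n w : ℕ) (V : Type)
    [Finite V] (G : SimpleGraph V) (d : V → V → ℝ), Leaf2 n w V G d → IsMet d → Gen G d →
      Tight G d (1 / (A * (9 * C * ((ll n : ℝ) + 1) + w))) := by
  obtain ⟨A, hA, hP⟩ := piece3_edgeExact
  refine ⟨A, by linarith, fun C hC hM n w V _ G d h hd hG => ?_⟩
  have hn : (0 : ℝ) ≤ (ll n : ℝ) := Nat.cast_nonneg _
  have hw : (0 : ℝ) ≤ (w : ℝ) := Nat.cast_nonneg _
  have hCn : 0 ≤ C * (ll n : ℝ) := mul_nonneg (by linarith) hn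
  have h9 : 9 ≤ 9 * C * ((ll n : ℝ) + 1) + w := by nlinarith
  have hbig : 9 * C * ((ll n : ℝ) + 1) + w ≤ A * (9 * C * ((ll n : ℝ) + 1) + w) :=
    le_mul_of_one_le_left (by linarith) (by linarith)
  have hden : 0 < A * (9 * C * ((ll n : ℝ) + 1) + w) := by linarith
  have hlog : Real.log ((0 : ℕ) + 2) ≤ 1 := by
    have := Real.log_two_lt_d9
    norm_num
    linarith
  have hlog0 : 0 ≤ Real.log ((0 : ℕ) + 2) := Real.log_nonneg (by norm_num)
  have hpw : ∀ hP3 : Piece3 w 0 V G, Tight G d (1 / (A * (9 * C * ((ll n : ℝ) + 1) + w))) := by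
    intro hP3
    have h1 : Tight G d (1 / (A * (w + Real.log ((0 : ℕ) + 2)))) :=
      fun s t hst => hP w 0 V G hP3 d hd hG s t hst
    refine h1.mono hd ?_
    have h2 : 0 < A * (w + Real.log ((0 : ℕ) + 2)) := by
      have : 0 < Real.log ((0 : ℕ) + 2) := Real.log_pos (by norm_num)
      positivity
    refine one_div_le_one_div_of_le h2 (mul_le_mul_of_nonneg_left ?_ (by linarith))
    linarith
  rcases h with h | h | h | h
  · refine (h.tight hC hM H271.rowC hd hG).mono hd ?_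
    refine one_div_le_one_div_of_le (by positivity) (le_trans ?_ hbig)
    nlinarith
  · refine (tight_of_isometric h).mono hd ?_
    rw [div_le_one hden]
    linarith
  · exact hpw (Or.inl h)
  · exact hpw (Or.inr ⟨∅, by simp, Or.inl (PathwidthLE.comap
      (G := G) (G' := G.induce {v | v ∉ (∅ : Finset V)}) (fun v => v.1)
      Subtype.val_injective (fun _ _ h => h) h)⟩)

/-- **Unlimited sums.**  `(G', d)`, `G ≤ G'`, `d = pathDist G ℓ`, arises by gluing at vertices, any
number of times, from weighted graphs in a class `R` which embeds with distortion `K`, and from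
pieces which arise by gluing along edges, any number of times, from the tight pieces `Leaf2`. -/
theorem sums_tw : ∃ A : ℝ, 1 ≤ A ∧ ∀ (C : ℝ), 1 ≤ C → MStarLL C → ∀ (K : ℝ), 0 ≤ K →
    ∀ (n w : ℕ) (R : ∀ (V : Type), SimpleGraph V → (Sym2 V → ℝ) → Prop),
    (∀ (V : Type) [Finite V] (G : SimpleGraph V) (ℓ : Sym2 V → ℝ), G.Connected →
      (∀ e ∈ G.edgeSet, 0 < ℓ e) → R V G ℓ → EmbedsL1 (pathDist G ℓ) K) →
    ∀ (V : Type) [Finite V] (G G' : SimpleGraph V) (ℓ : Sym2 V → ℝ), G.Connected →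
      (∀ e ∈ G.edgeSet, 0 < ℓ e) → G ≤ G' →
      VSumOf (fun V G d => SumOf (Leaf2 n w) G d ∨
        ∃ ℓ : Sym2 V → ℝ, (∀ u v, G.Adj u v → ℓ s(u, v) = d u v) ∧ R V G ℓ) G' (pathDist G ℓ) →
      EmbedsL1 (pathDist G ℓ) (A * (C * ((ll n : ℝ) + 1) + w) + K) := by
  obtain ⟨A, hA, hT⟩ := leaf2_tight
  refine ⟨269568000 * A, by linarith, fun C hC hM K hK n w R hR V _ G G' ℓ hc hℓ hle h => ?_⟩
  have hn : (0 : ℝ) ≤ (ll n : ℝ) := Nat.cast_nonneg _
  have hw : (0 : ℝ) ≤ (w : ℝ) := Nat.cast_nonneg _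
  have hCn : 0 ≤ C * (ll n : ℝ) := mul_nonneg (by linarith) hn
  have h9 : 9 ≤ 9 * C * ((ll n : ℝ) + 1) + w := by nlinarith
  have h1 : 1 ≤ A * (9 * C * ((ll n : ℝ) + 1) + w) := by nlinarith
  have hE := sums_general (c := 1 / (A * (9 * C * ((ll n : ℝ) + 1) + w))) (by positivity)
    (by rw [div_le_one (by linarith)]; exact h1) hK
    (fun V _ G d h hd hG => hT C hC hM n w V G d h hd hG) R hR V G G' ℓ hc hℓ hle h
  obtain ⟨Ω, m, μ, f, hf⟩ := hE
  refine ⟨Ω, m, μ, f, fun x y => ⟨(hf x y).1, (hf x y).2.trans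
    (mul_le_mul_of_nonneg_right ?_ (pd_nonneg hℓ x y))⟩⟩
  have e : 29952000 / (1 / (A * (9 * C * ((ll n : ℝ) + 1) + w))) =
      29952000 * (A * (9 * C * ((ll n : ℝ) + 1) + w)) := by field_simp
  rw [e]
  have h2 : 0 ≤ A * w := by positivity
  nlinarith

end Vale.Agent.P235.R2.H598
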