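import Vale.Agent.P235.R2.H582.KprSpec

/-!
P235-M (helper598): row R6 of `KprSpec.lean`, random partitions from three chops.
-/

set_option autoImplicit false

namespace Vale.Agent.P235.Kpr

open Vale.Agent.P235

/-- the edges of length at most `Δ` -/
def short {V : Type} (G : SimpleGraph V) (ℓ : Sym2 V → ℝ) (Δ : ℝ) : SimpleGraph V where
  Adj u v := G.Adj u v ∧ ℓ s(u, v) ≤ Δ
  symm := ⟨fun _ _ h => ⟨h.1.symm, by rw [Sym2.eq_swap]; exact h.2⟩⟩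
  loopless := ⟨fun _ h => h.1.ne rfl⟩

theorem short_le {V : Type} (G : SimpleGraph V) (ℓ : Sym2 V → ℝ) (Δ : ℝ) : short G ℓ Δ ≤ G :=
  fun _ _ h => h.1

theorem chop_le {V : Type} (H : SimpleGraph V) (f : V → ℝ) (Δ θ : ℝ) : chop H f Δ θ ≤ H :=
  fun _ _ h => h.1

/-- the number of triples in a set all of whose lines in one direction are short -/
theorem ncard_le_of_fibers {N : ℕ} (S : Set (Fin N × Fin N × Fin N)) (M : ℝ)
    (e : Fin N × Fin N × Fin N ≃ Fin N × Fin N × Fin N)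
    (h : ∀ a b, ({k | e (a, b, k) ∈ S}.ncard : ℝ) ≤ M) :
    (S.ncard : ℝ) ≤ (N : ℝ) ^ 2 * M := by
  classical
  have h1 : S.ncard = ((Finset.univ.filter fun ω => e ω ∈ S)).card := by
    rw [Set.ncard_eq_toFinset_card' S]
    symm
    refine Finset.card_bij (fun ω _ => e ω) (fun ω hω => ?_) (fun ω _ ω' _ h => e.injective h)
      (fun ω hω => ⟨e.symm ω, ?_, by simp⟩)
    · simpa using hω
    · simpa using hω
  have h2 : ((Finset.univ.filter fun ω => e ω ∈ S)).card =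
      ∑ a : Fin N, ∑ b : Fin N, (Finset.univ.filter fun k => e (a, b, k) ∈ S).card := by
    rw [Finset.card_filter, Fintype.sum_prod_type]
    refine Finset.sum_congr rfl fun a _ => ?_
    rw [Fintype.sum_prod_type]
    refine Finset.sum_congr rfl fun b _ => ?_
    rw [Finset.card_filter]
  rw [h1, h2]
  push_cast
  calc ∑ a : Fin N, ∑ b : Fin N, ((Finset.univ.filter fun k => e (a, b, k) ∈ S).card : ℝ)
      ≤ ∑ _a : Fin N, ∑ _b : Fin N, M := by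
        refine Finset.sum_le_sum fun a _ => Finset.sum_le_sum fun b _ => ?_
        have h3 := h a b
        rw [Set.ncard_eq_toFinset_card'] at h3
        simpa using h3
    _ = (N : ℝ) ^ 2 * M := by
        simp
        ring

theorem count_three {N : ℕ} (S : Set (Fin N × Fin N × Fin N)) (M : ℝ)
    (P₁ : Fin N → Prop) (P₂ : Fin N → Fin N → Prop) (P₃ : Fin N → Fin N → Fin N → Prop)
    (hS : ∀ a b c, (a, b, c) ∈ S → P₁ a ∨ P₂ a b ∨ P₃ a b c)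
    (h1 : ({a | P₁ a}.ncard : ℝ) ≤ M) (h2 : ∀ a, ({b | P₂ a b}.ncard : ℝ) ≤ M)
    (h3 : ∀ a b, ({c | P₃ a b c}.ncard : ℝ) ≤ M) : (S.ncard : ℝ) ≤ 3 * ((N : ℝ) ^ 2 * M) := by
  have b1 : (({ω | P₁ ω.1} : Set (Fin N × Fin N × Fin N)).ncard : ℝ) ≤ (N : ℝ) ^ 2 * M :=
    ncard_le_of_fibers _ M
      ⟨fun ω => (ω.2.2, ω.1, ω.2.1), fun ω => (ω.2.1, ω.2.2, ω.1), fun _ => rfl, fun _ => rfl⟩
      fun _ _ => h1
  have b2 : (({ω | P₂ ω.1 ω.2.1} : Set (Fin N × Fin N × Fin N)).ncard : ℝ) ≤ (N : ℝ) ^ 2 * M :=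
    ncard_le_of_fibers _ M
      ⟨fun ω => (ω.1, ω.2.2, ω.2.1), fun ω => (ω.1, ω.2.2, ω.2.1), fun _ => rfl, fun _ => rfl⟩
      fun a _ => h2 a
  have b3 : (({ω | P₃ ω.1 ω.2.1 ω.2.2} : Set (Fin N × Fin N × Fin N)).ncard : ℝ) ≤
      (N : ℝ) ^ 2 * M := ncard_le_of_fibers _ M (Equiv.refl _) fun a b => h3 a b
  have hsub : S ⊆ ({ω | P₁ ω.1} ∪ {ω | P₂ ω.1 ω.2.1}) ∪ {ω | P₃ ω.1 ω.2.1 ω.2.2} := by
    rintro ⟨a, b, c⟩ hω
    rcases hS a b c hω with h | h | h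
    · exact Or.inl (Or.inl h)
    · exact Or.inl (Or.inr h)
    · exact Or.inr h
  have h7 := Set.ncard_le_ncard hsub (Set.toFinite _)
  have h8 := Set.ncard_union_le (({ω | P₁ ω.1} : Set (Fin N × Fin N × Fin N)) ∪
    {ω | P₂ ω.1 ω.2.1}) {ω | P₃ ω.1 ω.2.1 ω.2.2}
  have h9 := Set.ncard_union_le ({ω | P₁ ω.1} : Set (Fin N × Fin N × Fin N))
    {ω | P₂ ω.1 ω.2.1}
  have h10 : (S.ncard : ℝ) ≤ ((({ω | P₁ ω.1} : Set (Fin N × Fin N × Fin N)).ncard +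
      ({ω | P₂ ω.1 ω.2.1} : Set (Fin N × Fin N × Fin N)).ncard +
      ({ω | P₃ ω.1 ω.2.1 ω.2.2} : Set (Fin N × Fin N × Fin N)).ncard : ℕ) : ℝ) := by
    exact_mod_cast (h7.trans h8).trans (Nat.add_le_add_right h9 _)
  push_cast at h10
  linarith

/-- the number of shifts which separate the ends of an edge, if the edge is there -/
theorem count_shift (h3 : RowCount) {V : Type} {ℓ : Sym2 V → ℝ} {Δ : ℝ} {N : ℕ} (hΔ : 0 < Δ)
    (hN : 0 < N) {u v : V} (hlp : 0 < ℓ s(u, v)) (P : Prop) (f : V → ℝ)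
    (hf : P → |f u - f v| ≤ ℓ s(u, v)) :
    ({k : Fin N | P ∧ slab f Δ ((k : ℕ) * Δ / N) u ≠ slab f Δ ((k : ℕ) * Δ / N) v}.ncard : ℝ) ≤
      N * ℓ s(u, v) / Δ + 1 := by
  by_cases hp : P
  · have h6 := h3 (f u) (f v) (ℓ s(u, v)) Δ N (hf hp) hΔ hN
    refine le_trans ?_ h6
    have h7 : {k : Fin N | P ∧ slab f Δ ((k : ℕ) * Δ / N) u ≠ slab f Δ ((k : ℕ) * Δ / N) v} ⊆
        {k : Fin N | ⌊(f u + (k : ℕ) * Δ / N) / Δ⌋ ≠ ⌊(f v + (k : ℕ) * Δ / N) / Δ⌋} :=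
      fun k hk => hk.2
    exact_mod_cast Set.ncard_le_ncard h7 (Set.toFinite _)
  · have h6 : {k : Fin N | P ∧
        slab f Δ ((k : ℕ) * Δ / N) u ≠ slab f Δ ((k : ℕ) * Δ / N) v} = ∅ := by
      ext k
      simp [hp]
    rw [h6, Set.ncard_empty]
    have hN' : (0 : ℝ) < N := by exact_mod_cast hN
    have : (0 : ℝ) ≤ N * ℓ s(u, v) / Δ + 1 := by positivity
    simpa using this

/-- the representative of the component of `v` -/
noncomputable def rep {V : Type} (K : SimpleGraph V) (v : V) : V :=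
  (K.connectedComponentMk v).out

theorem rep_reachable {V : Type} (K : SimpleGraph V) {u v : V} (h : rep K u = rep K v) :
    K.Reachable u v := by
  have hu : K.connectedComponentMk (rep K u) = K.connectedComponentMk u := Quot.out_eq _
  have hv : K.connectedComponentMk (rep K v) = K.connectedComponentMk v := Quot.out_eq _
  have h7 : K.connectedComponentMk u = K.connectedComponentMk v := by
    rw [← hu, ← hv, h]
  exact SimpleGraph.ConnectedComponent.exact h7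

theorem rep_eq {V : Type} (K : SimpleGraph V) {u v : V} (h : K.Adj u v) : rep K u = rep K v := by
  unfold rep
  rw [SimpleGraph.ConnectedComponent.sound h.reachable]

/-- **R6.** -/
theorem rowKPR (h2 : RowPot) (h3 : RowCount) (h5 : RowDiam) : RowKPR := by
  classical
  intro V _ G ℓ hc hP hℓ Δ N hΔ hN
  have hN' : (0 : ℝ) < N := by exact_mod_cast hN
  have hle : short G ℓ Δ ≤ G := short_le G ℓ Δ
  have hpos : ∀ K : SimpleGraph V, K ≤ G → ∀ e ∈ K.edgeSet, 0 < ℓ e := fun K hK e he =>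
    hℓ e (SimpleGraph.edgeSet_mono hK he)
  obtain ⟨f₁, r₁, hf₁⟩ := h2 V (short G ℓ Δ) ℓ (hpos _ hle)
  have hle1 : ∀ a : Fin N, chop (short G ℓ Δ) f₁ Δ ((a : ℕ) * Δ / N) ≤ G := fun a =>
    (chop_le _ _ _ _).trans hle
  choose f₂ r₂ hf₂ using fun a : Fin N =>
    h2 V (chop (short G ℓ Δ) f₁ Δ ((a : ℕ) * Δ / N)) ℓ (hpos _ (hle1 a))
  have hle2 : ∀ a b : Fin N, chop (chop (short G ℓ Δ) f₁ Δ ((a : ℕ) * Δ / N)) (f₂ a) Δ
      ((b : ℕ) * Δ / N) ≤ G := fun a b => (chop_le _ _ _ _).trans (hle1 a)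
  choose f₃ r₃ hf₃ using fun a b : Fin N =>
    h2 V (chop (chop (short G ℓ Δ) f₁ Δ ((a : ℕ) * Δ / N)) (f₂ a) Δ ((b : ℕ) * Δ / N)) ℓ
    (hpos _ (hle2 a b))
  refine ⟨fun ω v => rep (chop (chop (chop (short G ℓ Δ) f₁ Δ ((ω.1 : ℕ) * Δ / N)) (f₂ ω.1) Δ
    ((ω.2.1 : ℕ) * Δ / N)) (f₃ ω.1 ω.2.1) Δ ((ω.2.2 : ℕ) * Δ / N)) v, fun ω u v huv => ?_,
    fun u v ha => ?_⟩
  · exact h5 V G (short G ℓ Δ) ℓ Δ _ _ _ f₁ (f₂ ω.1) (f₃ ω.1 ω.2.1) r₁ (r₂ ω.1)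
      (r₃ ω.1 ω.2.1) hc hP hℓ hle hΔ (fun _ _ h => h.2) hf₁ (hf₂ ω.1) (hf₃ ω.1 ω.2.1) u v
      (rep_reachable _ huv)
  · have hlp : 0 < ℓ s(u, v) := hℓ _ ((SimpleGraph.mem_edgeSet _).2 ha)
    by_cases hs : ℓ s(u, v) ≤ Δ
    swap
    · push Not at hs
      have h9 : 1 ≤ ℓ s(u, v) / Δ := by
        rw [le_div_iff₀ hΔ]
        linarith
      have h10 : (0 : ℝ) ≤ 1 / N := by positivity
      have h11 : (0 : ℝ) ≤ (N : ℝ) ^ 3 := by positivity
      refine le_trans (b := (N : ℝ) ^ 3) ?_ (by nlinarith)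
      have h8 : (N : ℝ) ^ 3 = ((N * (N * N) : ℕ) : ℝ) := by
        push_cast
        ring
      rw [h8]
      have h7 : (Set.univ : Set (Fin N × Fin N × Fin N)).ncard = N * (N * N) := by
        rw [Set.ncard_univ, Nat.card_eq_fintype_card]
        simp only [Fintype.card_prod, Fintype.card_fin]
      rw [← h7]
      exact_mod_cast Set.ncard_le_ncard (Set.subset_univ _) Set.finite_univ
    have hadj : (short G ℓ Δ).Adj u v := ⟨ha, hs⟩
    refine (count_three _ (N * ℓ s(u, v) / Δ + 1)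
      (fun a => True ∧ slab f₁ Δ ((a : ℕ) * Δ / N) u ≠ slab f₁ Δ ((a : ℕ) * Δ / N) v)
      (fun a b => (chop (short G ℓ Δ) f₁ Δ ((a : ℕ) * Δ / N)).Adj u v ∧
        slab (f₂ a) Δ ((b : ℕ) * Δ / N) u ≠ slab (f₂ a) Δ ((b : ℕ) * Δ / N) v)
      (fun a b c => (chop (chop (short G ℓ Δ) f₁ Δ ((a : ℕ) * Δ / N)) (f₂ a) Δ
        ((b : ℕ) * Δ / N)).Adj u v ∧
        slab (f₃ a b) Δ ((c : ℕ) * Δ / N) u ≠ slab (f₃ a b) Δ ((c : ℕ) * Δ / N) v)
      ?_ (count_shift h3 hΔ hN hlp True f₁ fun _ => hf₁.lip u v hadj)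
      (fun a => count_shift h3 hΔ hN hlp _ (f₂ a) fun h => (hf₂ a).lip u v h)
      (fun a b => count_shift h3 hΔ hN hlp _ (f₃ a b) fun h => (hf₃ a b).lip u v h)).trans ?_
    · intro a b c hω
      by_contra hcon
      push Not at hcon
      obtain ⟨c1, c2, c3⟩ := hcon
      have e1 : (chop (short G ℓ Δ) f₁ Δ ((a : ℕ) * Δ / N)).Adj u v := ⟨hadj, c1 trivial⟩
      have e2 := c2 e1
      exact hω (rep_eq _ ⟨⟨e1, e2⟩, c3 ⟨e1, e2⟩⟩)
    · refine le_of_eq ?_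
      field_simp

end Vale.Agent.P235.Kpr
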