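/-
P235-M, sums (helper598), part 10: sums at vertices of edge sums of tight pieces, of bag pieces with
slopes and of plane pieces with two ends.
-/
import Vale.Agent.P235.R2.H598.Fin3
import Vale.Agent.P235.R2.H934.TwoFace

namespace Vale.Agent.P235.R2.H598

open Vale.Agent.P235 Vale.Agent.P235.Red

/-- A weighted graph with a function `h` on the vertices such that (bags) `G` has a path
decomposition with bags `B 0, …, B N`, `N ≤ n`, and `|h x - h y| ≤ d(x, y) ≤ D |h x - h y|` inside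
the bags; or (plane) `G` is plane with at most `n` vertices, `|h u - h v| ≤ ℓ(uv)` on the edges,
and for two ends `B₁`, `B₂` (a vertex or a face each, not the same face) every vertex outside `B₁`
has a downward edge and every vertex outside `B₂` an upward edge of slope at least `1 / D`. -/
def Height (n : ℕ) (D : ℝ) (V : Type) (G : SimpleGraph V) (ℓ : Sym2 V → ℝ) : Prop :=
  ∃ h : V → ℝ,
    (∃ (N : ℕ) (B : ℕ → Set V), N ≤ n ∧ (∀ v, ∃ i, i ≤ N ∧ v ∈ B i) ∧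
      (∀ u v, G.Adj u v → ∃ i, i ≤ N ∧ u ∈ B i ∧ v ∈ B i) ∧
      (∀ i j k, i ≤ j → j ≤ k → k ≤ N → ∀ v, v ∈ B i → v ∈ B k → v ∈ B j) ∧
      ∀ i, i ≤ N → ∀ x ∈ B i, ∀ y ∈ B i,
        |h x - h y| ≤ pathDist G ℓ x y ∧ pathDist G ℓ x y ≤ D * |h x - h y|) ∨
    (Nat.card V ≤ n ∧ ∃ (σ : Equiv.Perm G.Dart) (B₁ B₂ : Set V), PlaneMap G σ ∧ W3.Ends σ B₁ B₂ ∧
      (∀ u v, G.Adj u v → |h u - h v| ≤ ℓ s(u, v)) ∧
      (∀ v, v ∉ B₁ → ∃ u, G.Adj v u ∧ ℓ s(v, u) ≤ D * (h v - h u)) ∧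
      ∀ v, v ∉ B₂ → ∃ u, G.Adj v u ∧ ℓ s(v, u) ≤ D * (h u - h v))

theorem Height.embedsL1 {C : ℝ} (hC : 1 ≤ C) (hM : MStarLL C) {n : ℕ} {D : ℝ} (hD : 1 ≤ D)
    (V : Type) [Finite V] (G : SimpleGraph V) (ℓ : Sym2 V → ℝ) (hc : G.Connected)
    (hℓ : ∀ e ∈ G.edgeSet, 0 < ℓ e) (h : Height n D V G ℓ) :
    EmbedsL1 (pathDist G ℓ) (219073 * 288 * C * D * ((ll n : ℝ) + 1)) := by
  have hn : (0 : ℝ) ≤ (ll n : ℝ) := Nat.cast_nonneg _
  have hCD : 0 ≤ C * D := by positivity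
  obtain ⟨h, ⟨N, B, hN, hcov, hE, hconv, hh⟩ | ⟨hcard, σ, B₁, B₂, hP, hB, h1, hlow, hhigh⟩⟩ := h
  · have hE1 := bags_slope hC hM V G ℓ N B h D hc hℓ hD hcov hE hconv hh
    obtain ⟨Ω, m, μ, g, hg⟩ := hE1
    refine ⟨Ω, m, μ, g, fun x y => ⟨(hg x y).1, (hg x y).2.trans
      (mul_le_mul_of_nonneg_right ?_ (pd_nonneg hℓ x y))⟩⟩
    have h2 : (ll N : ℝ) ≤ (ll n : ℝ) := by exact_mod_cast ll_mono hN
    have h3 : (0 : ℝ) ≤ (ll N : ℝ) := Nat.cast_nonneg _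
    calc 32 * C * D * ((ll N : ℝ) + 1) = 32 * (C * D) * ((ll N : ℝ) + 1) := by ring
      _ ≤ (219073 * 288) * (C * D) * ((ll n : ℝ) + 1) := by
        refine mul_le_mul (by linarith) (by linarith) (by linarith) (by positivity)
      _ = _ := by ring
  · have hE1 := W3.plane_ends hC hM V G σ ℓ h B₁ B₂ D hD hc hP hℓ hB h1 hlow hhigh
    obtain ⟨Ω, m, μ, g, hg⟩ := hE1
    refine ⟨Ω, m, μ, g, fun x y => ⟨(hg x y).1, (hg x y).2.trans
      (mul_le_mul_of_nonneg_right ?_ (pd_nonneg hℓ x y))⟩⟩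
    have h2 : (ll (Nat.card V) : ℝ) ≤ (ll n : ℝ) := by exact_mod_cast ll_mono hcard
    have h3 : (0 : ℝ) ≤ (ll (Nat.card V) : ℝ) := Nat.cast_nonneg _
    calc 219073 * 96 * C * D * ((ll (Nat.card V) : ℝ) + 3)
        = (219073 * 96) * (C * D) * ((ll (Nat.card V) : ℝ) + 3) := by ring
      _ ≤ (219073 * 96) * (C * D) * (3 * ((ll n : ℝ) + 1)) := by
        refine mul_le_mul_of_nonneg_left (by linarith) (by positivity)
      _ = _ := by ring

/-- **Final form.**  `G` is a subgraph of `G'`, and `(G', d)`, `d = pathDist G ℓ`, arises by gluing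
at vertices, any number of times, from pieces with a height function (`Height`) and from pieces
which arise by gluing along edges, any number of times, from `Leaf`s. -/
theorem sums_height {C : ℝ} (hC : 1 ≤ C) (hM : MStarLL C) (n : ℕ) (V : Type) [Finite V]
    (G G' : SimpleGraph V) (ℓ : Sym2 V → ℝ) (D : ℝ) (hD : 1 ≤ D) (hc : G.Connected)
    (hℓ : ∀ e ∈ G.edgeSet, 0 < ℓ e) (hle : G ≤ G')
    (h : VSumOf (Block n (Height n D)) G' (pathDist G ℓ)) :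
    EmbedsL1 (pathDist G ℓ) (332661024 * C * D * ((ll n : ℝ) + 1)) := by
  have hn : (0 : ℝ) ≤ (ll n : ℝ) := Nat.cast_nonneg _
  have hE := sums_graph_class (K := 219073 * 288 * C * D * ((ll n : ℝ) + 1)) hC hM
    (by positivity) n (Height n D)
    (fun V _ G ℓ hc hℓ h => h.embedsL1 hC hM hD V G ℓ hc hℓ) V G G' ℓ hc hℓ hle h
  obtain ⟨Ω, m, μ, g, hg⟩ := hE
  refine ⟨Ω, m, μ, g, fun x y => ⟨(hg x y).1, (hg x y).2.trans
    (mul_le_mul_of_nonneg_right ?_ (pd_nonneg hℓ x y))⟩⟩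
  have h1 : 0 ≤ 29952000 * (9 * C) * ((ll n : ℝ) + 1) := by positivity
  have h2 := le_mul_of_one_le_right h1 hD
  linarith

end Vale.Agent.P235.R2.H598
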