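/-
P235-M, sums (helper598), part 11: sums at vertices of edge sums of tight pieces, of pieces with a
height function (`Height`) and of plane pieces whose local maxima lie on few faces (`Faces`).
-/
import Vale.Agent.P235.R2.H598.Fin4
import Vale.Agent.P235.R2.H582.FacesAll

namespace Vale.Agent.P235.R2.H598

open Vale.Agent.P235 Vale.Agent.P235.Red

/-- A plane weighted graph with at most `n` vertices and a function `h` on the vertices with slopes
in `[1/D, 1]` on all edges, only one local minimum `s`, and all local maxima on at most `g`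
faces. -/
def Faces (n g : ℕ) (D : ℝ) (V : Type) (G : SimpleGraph V) (ℓ : Sym2 V → ℝ) : Prop :=
  Nat.card V ≤ n ∧ ∃ (σ : Equiv.Perm G.Dart) (h : V → ℝ) (s : V) (M : Finset G.Dart),
    PlaneMap G σ ∧ M.Nonempty ∧ M.card ≤ g ∧
    (∀ u v, G.Adj u v → |h u - h v| ≤ ℓ s(u, v) ∧ ℓ s(u, v) ≤ D * |h u - h v|) ∧
    (∀ v, v ≠ s → ∃ u, G.Adj v u ∧ h u < h v) ∧
    ∀ v, (∃ u, G.Adj v u ∧ h v < h u) ∨ ∃ m ∈ M, v ∈ onFace σ m

theorem Faces.embedsL1 {C : ℝ} (hC : 1 ≤ C) (hM : MStarLL C) {n g : ℕ} {D : ℝ} (hD : 1 ≤ D)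
    (V : Type) [Finite V] (G : SimpleGraph V) (ℓ : Sym2 V → ℝ) (hc : G.Connected)
    (hℓ : ∀ e ∈ G.edgeSet, 0 < ℓ e) (h : Faces n g D V G ℓ) :
    EmbedsL1 (pathDist G ℓ)
      (70200000000000 * C * D * ((ll n : ℝ) + 1 + Real.log ((g : ℝ) + 2))) := by
  obtain ⟨hcard, σ, h, s, M, hP, hne, hg, hh, hlow, hhigh⟩ := h
  have hE1 := H582.plane_faces_all hC hM V G σ ℓ h s D M hne hc hP hℓ
    (fun u v ha => (hh u v ha).1) (fun u v ha => (hh u v ha).2) hlow hhigh
  obtain ⟨Ω, m, μ, f, hf⟩ := hE1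
  refine ⟨Ω, m, μ, f, fun x y => ⟨(hf x y).1, (hf x y).2.trans
    (mul_le_mul_of_nonneg_right ?_ (pd_nonneg hℓ x y))⟩⟩
  have h2 : (ll (Nat.card V) : ℝ) ≤ (ll n : ℝ) := by exact_mod_cast ll_mono hcard
  have h3 : Real.log ((M.card : ℝ) + 2) ≤ Real.log ((g : ℝ) + 2) := by
    refine Real.log_le_log (by positivity) ?_
    have : (M.card : ℝ) ≤ (g : ℝ) := by exact_mod_cast hg
    linarith
  exact mul_le_mul_of_nonneg_left (by linarith) (by positivity)

/-- a piece with a height function, or plane with all local maxima on at most `g` faces -/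
def Piece (n g : ℕ) (D : ℝ) (V : Type) (G : SimpleGraph V) (ℓ : Sym2 V → ℝ) : Prop :=
  Height n D V G ℓ ∨ Faces n g D V G ℓ

theorem Piece.embedsL1 {C : ℝ} (hC : 1 ≤ C) (hM : MStarLL C) {n g : ℕ} {D : ℝ} (hD : 1 ≤ D)
    (V : Type) [Finite V] (G : SimpleGraph V) (ℓ : Sym2 V → ℝ) (hc : G.Connected)
    (hℓ : ∀ e ∈ G.edgeSet, 0 < ℓ e) (h : Piece n g D V G ℓ) :
    EmbedsL1 (pathDist G ℓ)
      (70200000000000 * C * D * ((ll n : ℝ) + 1 + Real.log ((g : ℝ) + 2))) := by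
  have hn : (0 : ℝ) ≤ (ll n : ℝ) := Nat.cast_nonneg _
  have hg : (0 : ℝ) ≤ (g : ℝ) := Nat.cast_nonneg _
  have hlog : 0 ≤ Real.log ((g : ℝ) + 2) := Real.log_nonneg (by linarith)
  rcases h with h | h
  · obtain ⟨Ω, m, μ, f, hf⟩ := h.embedsL1 hC hM hD V G ℓ hc hℓ
    refine ⟨Ω, m, μ, f, fun x y => ⟨(hf x y).1, (hf x y).2.trans
      (mul_le_mul_of_nonneg_right ?_ (pd_nonneg hℓ x y))⟩⟩
    calc 219073 * 288 * C * D * ((ll n : ℝ) + 1) = (219073 * 288) * (C * D) * ((ll n : ℝ) + 1) := by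
          ring
      _ ≤ 70200000000000 * (C * D) * ((ll n : ℝ) + 1 + Real.log ((g : ℝ) + 2)) :=
          mul_le_mul (mul_le_mul_of_nonneg_right (by norm_num) (by positivity)) (by linarith)
            (by positivity) (by positivity)
      _ = _ := by ring
  · exact h.embedsL1 hC hM hD V G ℓ hc hℓ

/-- **Final form of the sums.**  `G` is a subgraph of `G'`, and `(G', d)`, `d = pathDist G ℓ`,
arises by gluing at vertices, any number of times, from `Piece`s and from pieces which arise by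
gluing along edges, any number of times, from `Leaf`s. -/
theorem sums_piece {C : ℝ} (hC : 1 ≤ C) (hM : MStarLL C) (n g : ℕ) (V : Type) [Finite V]
    (G G' : SimpleGraph V) (ℓ : Sym2 V → ℝ) (D : ℝ) (hD : 1 ≤ D) (hc : G.Connected)
    (hℓ : ∀ e ∈ G.edgeSet, 0 < ℓ e) (hle : G ≤ G')
    (h : VSumOf (Block n (Piece n g D)) G' (pathDist G ℓ)) :
    EmbedsL1 (pathDist G ℓ)
      (70200270000000 * C * D * ((ll n : ℝ) + 1 + Real.log ((g : ℝ) + 2))) := by
  have hn : (0 : ℝ) ≤ (ll n : ℝ) := Nat.cast_nonneg _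
  have hg : (0 : ℝ) ≤ (g : ℝ) := Nat.cast_nonneg _
  have hlog : 0 ≤ Real.log ((g : ℝ) + 2) := Real.log_nonneg (by linarith)
  have hE := sums_graph_class
    (K := 70200000000000 * C * D * ((ll n : ℝ) + 1 + Real.log ((g : ℝ) + 2))) hC hM
    (by positivity) n (Piece n g D)
    (fun V _ G ℓ hc hℓ h => h.embedsL1 hC hM hD V G ℓ hc hℓ) V G G' ℓ hc hℓ hle h
  obtain ⟨Ω, m, μ, f, hf⟩ := hE
  refine ⟨Ω, m, μ, f, fun x y => ⟨(hf x y).1, (hf x y).2.trans
    (mul_le_mul_of_nonneg_right ?_ (pd_nonneg hℓ x y))⟩⟩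
  have h1 : 29952000 * (9 * C) * ((ll n : ℝ) + 1) ≤
      270000000 * C * D * ((ll n : ℝ) + 1 + Real.log ((g : ℝ) + 2)) := by
    calc 29952000 * (9 * C) * ((ll n : ℝ) + 1) = (269568000 * C) * 1 * ((ll n : ℝ) + 1) := by ring
      _ ≤ (270000000 * C) * D * ((ll n : ℝ) + 1 + Real.log ((g : ℝ) + 2)) :=
          mul_le_mul (mul_le_mul (by linarith) hD (by norm_num) (by positivity)) (by linarith)
            (by positivity) (by positivity)
  have h2 : 70200270000000 * C * D * ((ll n : ℝ) + 1 + Real.log ((g : ℝ) + 2)) =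
      70200000000000 * C * D * ((ll n : ℝ) + 1 + Real.log ((g : ℝ) + 2)) +
      270000000 * C * D * ((ll n : ℝ) + 1 + Real.log ((g : ℝ) + 2)) := by ring
  rw [h2]
  linarith

end Vale.Agent.P235.R2.H598
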