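/-
P235-M, sums (helper598), part 13: sums at vertices, of plane pieces with few uncovered maxima
(`g` for every piece) and of edge sums of tight pieces.
-/
import Vale.Agent.P235.R2.RED.SweptE
import Vale.Agent.P235.R2.H802.T4All
import Vale.Agent.P235.R2.H882.MStar

namespace Vale.Agent.P235.R2.H598

open Vale.Agent.P235 Vale.Agent.P235.Red

/-- A plane weighted graph with at most `n` vertices and a nonexpansive function `h` such that every
vertex but `s` has an edge of slope at least `1/D` downwards, and every vertex which is not in `B`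
and not on a face of `M`, `|B| + |M| ≤ g`, one upwards. -/
def FewMax (n g : ℕ) (D : ℝ) (V : Type) (G : SimpleGraph V) (ℓ : Sym2 V → ℝ) : Prop :=
  Nat.card V ≤ n ∧ ∃ (σ : Equiv.Perm G.Dart) (h : V → ℝ) (s : V) (B : Finset V)
    (M : Finset G.Dart), PlaneMap G σ ∧ B.card + M.card ≤ g ∧
    (∀ u v, G.Adj u v → |h u - h v| ≤ ℓ s(u, v)) ∧
    (∀ v, v ≠ s → ∃ u, G.Adj v u ∧ ℓ s(v, u) ≤ D * (h v - h u)) ∧
    ∀ v, (∃ u, G.Adj v u ∧ ℓ s(v, u) ≤ D * (h u - h v)) ∨ v ∈ B ∨ ∃ m ∈ M, v ∈ onFace σ m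

theorem FewMax.embeds {C : ℝ} (hC : 1 ≤ C) (hM : MStarLL C) {n g : ℕ} {D : ℝ} (hD : 1 ≤ D)
    (V : Type) [Finite V] (G : SimpleGraph V) (ℓ : Sym2 V → ℝ) (hc : G.Connected)
    (hℓ : ∀ e ∈ G.edgeSet, 0 < ℓ e) (h : FewMax n g D V G ℓ) :
    EmbedsL1 (pathDist G ℓ) (4 * (10 ^ 9 * 1000000000000000) * C * D *
      ((ll n : ℝ) + 1 + √(Real.log ((g : ℝ) + 2)))) := by
  obtain ⟨hcard, σ, h, s, B, M, hP, hg, h1, hlow, hhigh⟩ := h
  obtain ⟨Ω, m, μ, f, hf⟩ :=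
    SqR.plane_all hC hM V G σ ℓ h s D M B hD hc hP hℓ h1 hlow hhigh
  refine ⟨Ω, m, μ, f, fun x y => ⟨(hf x y).1, (hf x y).2.trans
    (mul_le_mul_of_nonneg_right ?_ (pd_nonneg hℓ x y))⟩⟩
  have h2 : (ll (Nat.card V) : ℝ) ≤ (ll n : ℝ) := by exact_mod_cast ll_mono hcard
  have h3 : √(Real.log (((B.card + M.card : ℕ) : ℝ) + 2)) ≤ √(Real.log ((g : ℝ) + 2)) := by
    refine Real.sqrt_le_sqrt (Real.log_le_log (by positivity) ?_)
    have : ((B.card + M.card : ℕ) : ℝ) ≤ (g : ℝ) := by exact_mod_cast hg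
    linarith
  exact mul_le_mul_of_nonneg_left (by linarith) (by positivity)

/-- a piece: an edge sum of tight pieces, or plane with few uncovered maxima -/
def MPiece (n g : ℕ) (D : ℝ) (V : Type) (G : SimpleGraph V) (d : V → V → ℝ) : Prop :=
  Swp.EdgeSum (Swp.Tight n) G d ∨ ∃ ℓ : Sym2 V → ℝ, (∀ u v, G.Adj u v → ℓ s(u, v) = d u v) ∧
    FewMax n g D V G ℓ

theorem vSumOf_mPiece {n g : ℕ} {D : ℝ} {V : Type} {G : SimpleGraph V} {d : V → V → ℝ}
    (h : Swp.VertexSum (MPiece n g D) G d) : VSumOf (fun V G d => SumOf (Leaf2 n 0) G d ∨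
        ∃ ℓ : Sym2 V → ℝ, (∀ u v, G.Adj u v → ℓ s(u, v) = d u v) ∧ FewMax n g D V G ℓ) G d := by
  induction h with
  | base h =>
    rcases h with h | h
    · exact .base (Or.inl h.sumOf)
    · exact .base (Or.inr h)
  | glue h2 h3 h4 _ _ ihA ihB => exact .glue h2 h3 h4 ihA ihB

/-- **Vertex sums of plane pieces with few uncovered maxima, `g` for every piece.** -/
theorem sums_fewMax : ∃ A : ℝ, 1 ≤ A ∧ ∀ (C : ℝ), 1 ≤ C → MStarLL C → ∀ (n g : ℕ) (D : ℝ), 1 ≤ D →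
    ∀ (V : Type) [Finite V] (G G' : SimpleGraph V) (ℓ : Sym2 V → ℝ), G.Connected →
      (∀ e ∈ G.edgeSet, 0 < ℓ e) → G ≤ G' → Swp.VertexSum (MPiece n g D) G' (pathDist G ℓ) →
      EmbedsL1 (pathDist G ℓ) (A * C * D * ((ll n : ℝ) + 1 + √(Real.log ((g : ℝ) + 2)))) := by
  obtain ⟨A, hA, h⟩ := sums_tw
  refine ⟨A + 4 * (10 ^ 9 * 1000000000000000), by linarith, ?_⟩
  intro C hC hM n g D hD V _ G G' ℓ hc hℓ hle hS
  have hn : (0 : ℝ) ≤ (ll n : ℝ) := Nat.cast_nonneg _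
  have hsq : 0 ≤ √(Real.log ((g : ℝ) + 2)) := Real.sqrt_nonneg _
  have hE := h C hC hM (4 * (10 ^ 9 * 1000000000000000) * C * D *
      ((ll n : ℝ) + 1 + √(Real.log ((g : ℝ) + 2)))) (by positivity) n 0 (FewMax n g D)
    (fun V _ G ℓ hc hℓ h => h.embeds hC hM hD V G ℓ hc hℓ) V G G' ℓ hc hℓ hle (vSumOf_mPiece hS)
  obtain ⟨Ω, m, μ, f, hf⟩ := hE
  refine ⟨Ω, m, μ, f, fun x y => ⟨(hf x y).1, (hf x y).2.trans
    (mul_le_mul_of_nonneg_right ?_ (pd_nonneg hℓ x y))⟩⟩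
  have h1 : A * (C * ((ll n : ℝ) + 1) + ((0 : ℕ) : ℝ)) ≤
      A * C * D * ((ll n : ℝ) + 1 + √(Real.log ((g : ℝ) + 2))) := by
    have h2 : 0 ≤ A * C * ((ll n : ℝ) + 1) := by positivity
    calc A * (C * ((ll n : ℝ) + 1) + ((0 : ℕ) : ℝ)) = A * C * ((ll n : ℝ) + 1) := by
          push_cast; ring
      _ ≤ A * C * ((ll n : ℝ) + 1) * D := le_mul_of_one_le_right h2 hD
      _ ≤ A * C * ((ll n : ℝ) + 1 + √(Real.log ((g : ℝ) + 2))) * D := by
          refine mul_le_mul_of_nonneg_right (mul_le_mul_of_nonneg_left (by linarith)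
            (by positivity)) (by linarith)
      _ = _ := by ring
  have h3 : (A + 4 * (10 ^ 9 * 1000000000000000)) * C * D *
      ((ll n : ℝ) + 1 + √(Real.log ((g : ℝ) + 2))) =
      A * C * D * ((ll n : ℝ) + 1 + √(Real.log ((g : ℝ) + 2))) +
      4 * (10 ^ 9 * 1000000000000000) * C * D *
      ((ll n : ℝ) + 1 + √(Real.log ((g : ℝ) + 2))) := by ring
  rw [h3]
  linarith

end Vale.Agent.P235.R2.H598
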