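/-
P235-M, sums (helper598), part 14: sums at vertices, of blocks of any class which embeds and of edge
sums of tight pieces; plane blocks with few uncovered maxima or ends (`g` for every block).
-/
import Vale.Agent.P235.R2.RED.SweptE
import Vale.Agent.P235.R2.H802.PkF

namespace Vale.Agent.P235.R2.H598

open Vale.Agent.P235 Vale.Agent.P235.Red

/-- a block: an edge sum of tight pieces, or a graph with at most `n` vertices and lengths
in `R` -/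
def GBlock (R : ∀ (V : Type), SimpleGraph V → (Sym2 V → ℝ) → Prop) (n : ℕ) (V : Type)
    (G : SimpleGraph V) (d : V → V → ℝ) : Prop :=
  Swp.EdgeSum (Swp.Tight n) G d ∨ ∃ ℓ : Sym2 V → ℝ, (∀ u v, G.Adj u v → ℓ s(u, v) = d u v) ∧
    Nat.card V ≤ n ∧ R V G ℓ

theorem vSumOf_gBlock {R : ∀ (V : Type), SimpleGraph V → (Sym2 V → ℝ) → Prop} {n : ℕ} {V : Type}
    {G : SimpleGraph V} {d : V → V → ℝ} (h : Swp.VertexSum (GBlock R n) G d) :
    VSumOf (fun V G d => SumOf (Leaf2 n 0) G d ∨ ∃ ℓ : Sym2 V → ℝ,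
      (∀ u v, G.Adj u v → ℓ s(u, v) = d u v) ∧ (Nat.card V ≤ n ∧ R V G ℓ)) G d := by
  induction h with
  | base h =>
    rcases h with h | h
    · exact .base (Or.inl h.sumOf)
    · exact .base (Or.inr h)
  | glue h2 h3 h4 _ _ ihA ihB => exact .glue h2 h3 h4 ihA ihB

/-- **Sums at vertices, any class of blocks.** -/
theorem sums_blocks : ∃ A : ℝ, 1 ≤ A ∧ ∀ (C : ℝ), 1 ≤ C → MStarLL C → ∀ (K : ℝ), 0 ≤ K →
    ∀ (n : ℕ) (R : ∀ (V : Type), SimpleGraph V → (Sym2 V → ℝ) → Prop),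
    (∀ (V : Type) [Finite V] (G : SimpleGraph V) (ℓ : Sym2 V → ℝ), G.Connected →
      (∀ e ∈ G.edgeSet, 0 < ℓ e) → Nat.card V ≤ n → R V G ℓ → EmbedsL1 (pathDist G ℓ) K) →
    ∀ (V : Type) [Finite V] (G G' : SimpleGraph V) (ℓ : Sym2 V → ℝ), G.Connected →
      (∀ e ∈ G.edgeSet, 0 < ℓ e) → G ≤ G' → Swp.VertexSum (GBlock R n) G' (pathDist G ℓ) →
      EmbedsL1 (pathDist G ℓ) (A * C * Swp.LL n + K) := by
  obtain ⟨A, hA, h⟩ := sums_tw
  refine ⟨A, hA, ?_⟩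
  intro C hC hM K hK n R hR V _ G G' ℓ hc hℓ hle hS
  refine Swp.up hℓ (h C hC hM K hK n 0 (fun V G ℓ => Nat.card V ≤ n ∧ R V G ℓ)
    (fun V _ G ℓ hc hℓ h => hR V G ℓ hc hℓ h.1 h.2) V G G' ℓ hc hℓ hle (vSumOf_gBlock hS)) ?_
  rw [Swp.LL_eq]
  push_cast
  rw [add_zero, mul_assoc]

theorem embeds_of_univ {V : Type} {d : V → V → ℝ} {K : ℝ}
    (h : EmbedsL1 (fun u v : (Set.univ : Set V) => d u v) K) : EmbedsL1 d K := by
  obtain ⟨Ω, m, μ, f, hf⟩ := h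
  exact ⟨Ω, m, μ, fun v => f ⟨v, trivial⟩, fun x y => hf ⟨x, trivial⟩ ⟨y, trivial⟩⟩

/-- two ends are one source and one exceptional vertex or face -/
theorem twoEnds_fewPeaks {V : Type} {G : SimpleGraph V} {ℓ : Sym2 V → ℝ} {D : ℝ} {L : Set V}
    (h : Swp.TwoEnds G ℓ D L) : Pk.FewPeaks G ℓ D L 1 := by
  classical
  obtain ⟨σ, h, B₁, B₂, hP, ⟨hB1, hB2, hB⟩, h1, hlow, hhigh⟩ := h
  have key : ∀ (B : Finset V) (M : Finset G.Dart),
      (∀ v, v ∈ B₂ → v ∈ B ∨ ∃ m ∈ M, v ∈ onFace σ m) →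
      ∀ v ∈ L, (∃ u ∈ L, G.Adj v u ∧ ℓ s(v, u) ≤ D * (h u - h v)) ∨ v ∈ B ∨
        ∃ m ∈ M, v ∈ onFace σ m := by
    intro B M hBM v hv
    by_cases hv2 : v ∈ B₂
    · exact Or.inr (hBM v hv2)
    · exact Or.inl (hhigh v hv hv2)
  by_cases hs2 : ∃ t, B₂ = {t}
  · obtain ⟨t, rfl⟩ := hs2
    refine ⟨σ, h, B₁, {t}, ∅, hP, by simp, ?_, h1, hlow, key _ _ fun v hv => Or.inl ?_⟩
    · rcases hB1 with k | ⟨d₁, k⟩
      · exact Or.inl k
      · exact Or.inr ⟨d₁, k, fun m hm => by simp at hm⟩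
    · simpa using hv
  by_cases hs1 : ∃ s, B₁ = {s}
  · obtain ⟨d₂, rfl⟩ := hB2.resolve_left hs2
    exact ⟨σ, h, B₁, ∅, {d₂}, hP, by simp, Or.inl hs1, h1, hlow,
      key _ _ fun v hv => Or.inr ⟨d₂, by simp, hv⟩⟩
  · obtain ⟨d₁, d₂, hd, e1, e2⟩ := (hB.resolve_left hs1).resolve_left hs2
    refine ⟨σ, h, B₁, ∅, {d₂}, hP, by simp, Or.inr ⟨d₁, e1, fun m hm => ?_⟩, h1, hlow,
      key _ _ fun v hv => Or.inr ⟨d₂, by simp, e2 ▸ hv⟩⟩
    rw [Finset.mem_singleton] at hm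
    rw [hm]
    exact hd

/-- **Vertex sums of plane blocks with few uncovered maxima (`g` for every block) and of edge sums
of tight pieces.** -/
theorem sums_peaks : ∃ A : ℝ, 1 ≤ A ∧ ∀ (C : ℝ), 1 ≤ C → MStarLL C → ∀ (D : ℝ), 1 ≤ D →
    ∀ (n g : ℕ) (V : Type) [Finite V] (G G' : SimpleGraph V) (ℓ : Sym2 V → ℝ), G.Connected →
      (∀ e ∈ G.edgeSet, 0 < ℓ e) → G ≤ G' → Swp.VertexSum
        (GBlock (fun _ G ℓ => Pk.FewPeaks G ℓ D Set.univ g) n) G' (pathDist G ℓ) →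
      EmbedsL1 (pathDist G ℓ) (A * C * D * (Swp.LL n + √(Real.log ((g : ℝ) + 2)))) := by
  obtain ⟨A, hA, h⟩ := sums_blocks
  refine ⟨A + 3 * 10 ^ 22, by linarith, ?_⟩
  intro C hC hM D hD n g V _ G G' ℓ hc hℓ hle hS
  have hL := Swp.LL_nonneg n
  have hsq : 0 ≤ √(Real.log ((g : ℝ) + 2)) := Real.sqrt_nonneg _
  have hE := h C hC hM (3 * 10 ^ 22 * C * D *
      (Swp.LL n + √(Real.log ((g : ℝ) + 2)))) (by positivity) n
    (fun _ G ℓ => Pk.FewPeaks G ℓ D Set.univ g)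
    (fun V _ G ℓ hc hℓ hcard h => Swp.up hℓ (embeds_of_univ (h.embeds hC hM hc hℓ hD))
      (mul_le_mul_of_nonneg_left (by linarith [Swp.LL_mono hcard]) (by positivity)))
    V G G' ℓ hc hℓ hle hS
  refine Swp.up hℓ hE ?_
  have h1 : A * C * Swp.LL n ≤ A * C * D * (Swp.LL n + √(Real.log ((g : ℝ) + 2))) := by
    have h2 : 0 ≤ A * C * Swp.LL n := by positivity
    calc A * C * Swp.LL n ≤ A * C * Swp.LL n * D := le_mul_of_one_le_right h2 hD
      _ = A * C * D * Swp.LL n := by ring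
      _ ≤ _ := mul_le_mul_of_nonneg_left (by linarith) (by positivity)
  calc A * C * Swp.LL n + 3 * 10 ^ 22 * C * D * (Swp.LL n + √(Real.log ((g : ℝ) + 2)))
      ≤ A * C * D * (Swp.LL n + √(Real.log ((g : ℝ) + 2))) +
        3 * 10 ^ 22 * C * D * (Swp.LL n + √(Real.log ((g : ℝ) + 2))) := by linarith
    _ = _ := by ring

/-- **Vertex sums of blocks with few ends (`g` for every block) and of edge sums of tight
pieces.** -/
theorem sums_ends : ∃ A : ℝ, 1 ≤ A ∧ ∀ (C : ℝ), 1 ≤ C → MStarLL C → ∀ (D : ℝ), 1 ≤ D →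
    ∀ (n g : ℕ) (V : Type) [Finite V] (G G' : SimpleGraph V) (ℓ : Sym2 V → ℝ), G.Connected →
      (∀ e ∈ G.edgeSet, 0 < ℓ e) → G ≤ G' →
      Swp.VertexSum (GBlock (fun _ G ℓ => Pk.FewEnds G ℓ D Set.univ g) n) G' (pathDist G ℓ) →
      EmbedsL1 (pathDist G ℓ) (A * C * D * (Swp.LL n + Real.log ((g : ℝ) + 2))) := by
  obtain ⟨A, hA, h⟩ := sums_blocks
  refine ⟨A + 1600000000000000, by linarith, ?_⟩
  intro C hC hM D hD n g V _ G G' ℓ hc hℓ hle hS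
  have hL := Swp.LL_nonneg n
  have hg : (0 : ℝ) ≤ (g : ℝ) := Nat.cast_nonneg _
  have hlog : 0 ≤ Real.log ((g : ℝ) + 2) := Real.log_nonneg (by linarith)
  refine Swp.up hℓ (h C hC hM (1600000000000000 * C * D *
      (Swp.LL n + Real.log ((g : ℝ) + 2))) (by positivity) n _
    (fun V _ G ℓ hc hℓ hcard h => Swp.up hℓ (embeds_of_univ (h.embeds hC hM hc hℓ hD))
      (mul_le_mul_of_nonneg_left (by linarith [Swp.LL_mono hcard]) (by positivity)))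
    V G G' ℓ hc hℓ hle hS) ?_
  have h1 : A * C * Swp.LL n ≤ A * C * D * (Swp.LL n + Real.log ((g : ℝ) + 2)) := by
    have h2 : 0 ≤ A * C * Swp.LL n := by positivity
    calc A * C * Swp.LL n ≤ A * C * Swp.LL n * D := le_mul_of_one_le_right h2 hD
      _ = A * C * D * Swp.LL n := by ring
      _ ≤ _ := mul_le_mul_of_nonneg_left (by linarith) (by positivity)
  calc A * C * Swp.LL n + 1600000000000000 * C * D * (Swp.LL n + Real.log ((g : ℝ) + 2))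
      ≤ A * C * D * (Swp.LL n + Real.log ((g : ℝ) + 2)) +
        1600000000000000 * C * D * (Swp.LL n + Real.log ((g : ℝ) + 2)) := by linarith
    _ = _ := by ring

end Vale.Agent.P235.R2.H598
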